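import Crest.Agent.R271.Defs

/-! # Row 271, block S2: the section ring of a valuation model -/

set_option autoImplicit false

open Set

noncomputable section

namespace Crest.Agent.R271.S2

variable {n : ℕ} {K : Type} [Field K] [Algebra ℂ K] (v : VM n K)

theorem ord_one (z : v.ι) : v.ord z 1 = 0 := by
  have := v.ord_mul z 1 1 one_ne_zero one_ne_zero
  rw [mul_one] at this
  omega

theorem ord_inv (z : v.ι) {f : K} (hf : f ≠ 0) : v.ord z f⁻¹ = -v.ord z f := by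
  have := v.ord_mul z f f⁻¹ hf (inv_ne_zero hf)
  rw [mul_inv_cancel₀ hf, ord_one] at this
  omega

theorem ord_pow (z : v.ι) {f : K} (hf : f ≠ 0) (m : ℕ) : v.ord z (f ^ m) = m * v.ord z f := by
  induction m with
  | zero => simp [ord_one]
  | succ m ih => rw [pow_succ, v.ord_mul z _ _ (pow_ne_zero _ hf) hf, ih]; push_cast; ring

theorem ord_div (z : v.ι) {f g : K} (hf : f ≠ 0) (hg : g ≠ 0) :
    v.ord z (f / g) = v.ord z f - v.ord z g := by
  rw [div_eq_mul_inv, v.ord_mul z _ _ hf (inv_ne_zero hg), ord_inv v z hg]; ring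

theorem exists_ord (z : v.ι) (m : ℤ) : ∃ π : K, π ≠ 0 ∧ v.ord z π = m := by
  obtain ⟨π, hπ, h1⟩ := v.unif z
  obtain ⟨a, rfl | rfl⟩ := Int.eq_nat_or_neg m
  · exact ⟨π ^ a, pow_ne_zero _ hπ, by rw [ord_pow v z hπ, h1, mul_one]⟩
  · exact ⟨(π ^ a)⁻¹, inv_ne_zero (pow_ne_zero _ hπ), by
      rw [ord_inv v z (pow_ne_zero _ hπ), ord_pow v z hπ, h1, mul_one]⟩

theorem ge_iff (z : v.ι) (m : ℤ) :
    ∃ π : K, ∀ f, (f = 0 ∨ 0 ≤ v.ord z f + m) ↔ f * π ∈ v.O z := by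
  obtain ⟨π, hπ, h⟩ := exists_ord v z m
  refine ⟨π, fun f => ?_⟩
  rw [v.mem_O]
  by_cases hf : f = 0
  · simp [hf]
  · rw [v.ord_mul z _ _ hf hπ, h]
    simp [hf, hπ]

/-- the global sections of `l L` -/
def sec (l : ℕ) : Submodule ℂ K where
  carrier := {f | ∀ z, f = 0 ∨ 0 ≤ v.ord z f + l * v.L z}
  zero_mem' := fun _ => Or.inl rfl
  add_mem' := by
    intro a b ha hb z
    obtain ⟨π, h⟩ := ge_iff v z (l * v.L z)
    rw [h, add_mul]
    exact add_mem ((h a).1 (ha z)) ((h b).1 (hb z))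
  smul_mem' := by
    intro c a ha z
    obtain ⟨π, h⟩ := ge_iff v z (l * v.L z)
    rw [h, smul_mul_assoc]
    exact Subalgebra.smul_mem _ ((h a).1 (ha z)) c

theorem mem_sec' {l : ℕ} {f : K} : f ∈ sec v l ↔ ∀ z, f = 0 ∨ 0 ≤ v.ord z f + l * v.L z := Iff.rfl

theorem mem_sec {l : ℕ} {f : K} : f ∈ sec v l ↔ f = 0 ∨ ∀ z, 0 ≤ v.ord z f + l * v.L z := by
  rw [mem_sec']
  by_cases hf : f = 0 <;> simp [hf]

theorem one_mem_sec : (1 : K) ∈ sec v 0 := fun z => Or.inr (by simp [ord_one])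

theorem mul_mem_sec (i j : ℕ) : ∀ a ∈ sec v i, ∀ b ∈ sec v j, a * b ∈ sec v (i + j) := by
  intro a ha b hb z
  by_cases ha0 : a = 0
  · simp [ha0]
  by_cases hb0 : b = 0
  · simp [hb0]
  have h1 := (ha z).resolve_left ha0
  have h2 := (hb z).resolve_left hb0
  right
  rw [v.ord_mul z _ _ ha0 hb0]
  push_cast
  linarith

theorem pow_mem_sec {i : ℕ} {a : K} (ha : a ∈ sec v i) (m : ℕ) : a ^ m ∈ sec v (m * i) := by
  induction m with
  | zero => simpa using one_mem_sec v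
  | succ m ih => rw [pow_succ, add_mul, one_mul]; exact mul_mem_sec v _ _ _ ih _ ha

theorem u_mem (i : Fin (v.N + 1)) : v.u i ∈ sec v v.k₀ := fun z => Or.inr (v.u_sec i z)

theorem finL : {z | v.L z < 0}.Finite := by
  refine (Set.finite_iUnion fun i => v.fin_supp (v.u i)⁻¹ (inv_ne_zero (v.u_ne i))).subset ?_
  intro z hz
  obtain ⟨i, hi⟩ := v.cover z
  refine mem_iUnion.2 ⟨i, ?_⟩
  simp only [mem_ofPred_eq] at hz ⊢
  rw [ord_inv v z (v.u_ne i)]
  have : (0 : ℤ) < v.k₀ := by exact_mod_cast v.k₀_pos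
  nlinarith

/-- a section on the chart `i` extends after multiplication by a power of `u i` -/
theorem exists_mul_pow (i : Fin (v.N + 1)) (l : ℕ) (f : K)
    (hf : ∀ z, v.ord z (v.u i) + v.k₀ * v.L z = 0 → f = 0 ∨ 0 ≤ v.ord z f + l * v.L z) :
    ∃ j : ℕ, ∀ j', j ≤ j' → f * v.u i ^ j' ∈ sec v (l + j' * v.k₀) := by
  by_cases hf0 : f = 0
  · exact ⟨0, fun j' _ => by rw [hf0, zero_mul]; exact zero_mem _⟩
  have hfin : {z | v.ord z f + l * v.L z < 0}.Finite := by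
    refine ((v.fin_supp f hf0).union (finL v)).subset fun z hz => ?_
    simp only [mem_ofPred_eq, mem_union] at hz ⊢
    by_contra hc
    push Not at hc
    have := mul_nonneg (Int.natCast_nonneg l) hc.2
    linarith [hc.1]
  obtain ⟨B, hB⟩ := (hfin.image fun z => (-(v.ord z f + l * v.L z)).toNat).bddAbove
  refine ⟨B, fun j' hj z => Or.inr ?_⟩
  rw [v.ord_mul z _ _ hf0 (pow_ne_zero _ (v.u_ne i)), ord_pow v z (v.u_ne i)]
  have h0 := v.u_sec i z
  have e : v.ord z f + j' * v.ord z (v.u i) + ((l + j' * v.k₀ : ℕ) : ℤ) * v.L z =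
      (v.ord z f + l * v.L z) + j' * (v.ord z (v.u i) + v.k₀ * v.L z) := by push_cast; ring
  rw [e]
  by_cases hz : v.ord z f + l * v.L z < 0
  · have h1 : (-(v.ord z f + l * v.L z)).toNat ≤ B := hB ⟨z, hz, rfl⟩
    have h2 : v.ord z (v.u i) + v.k₀ * v.L z ≠ 0 := fun h => by
      have := (hf z h).resolve_left hf0
      omega
    have h3 : (j' : ℤ) * 1 ≤ j' * (v.ord z (v.u i) + v.k₀ * v.L z) :=
      mul_le_mul_of_nonneg_left (by omega) (Int.natCast_nonneg _)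
    omega
  · have := mul_nonneg (Int.natCast_nonneg j') h0
    omega

theorem exists_mul_pow_C (i : Fin (v.N + 1)) {f : K} (hf : f ∈ v.C i) :
    ∃ j : ℕ, ∀ j', j ≤ j' → f * v.u i ^ j' ∈ sec v (j' * v.k₀) := by
  obtain ⟨j, hj⟩ := exists_mul_pow v i 0 f fun z hz => by
    simpa using (v.mem_O z f).1 ((v.mem_C i f).1 hf z hz)
  exact ⟨j, fun j' h => by simpa using hj j' h⟩

theorem div_mem_C (i : Fin (v.N + 1)) {j : ℕ} {s : K} (hs : s ∈ sec v (j * v.k₀)) :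
    s / v.u i ^ j ∈ v.C i := by
  rw [v.mem_C]
  intro z hz
  rw [v.mem_O]
  by_cases hs0 : s = 0
  · simp [hs0]
  right
  have := (hs z).resolve_left hs0
  rw [ord_div v z hs0 (pow_ne_zero _ (v.u_ne i)), ord_pow v z (v.u_ne i)]
  push_cast at this
  have e : v.ord z (v.u i) = -(v.k₀ * v.L z) := by omega
  rw [e]
  linarith

/-- every element of `K` is a ratio of two sections of the same degree -/
theorem frac_sec (f : K) : ∃ l, ∃ a ∈ sec v l, ∃ b ∈ sec v l, b ≠ 0 ∧ f = a / b := by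
  obtain ⟨a, ha, b, hb, rfl⟩ := v.frac 0 f
  by_cases hb0 : b = 0
  · exact ⟨0, 0, zero_mem _, 1, one_mem_sec v, one_ne_zero, by simp [hb0]⟩
  obtain ⟨j1, h1⟩ := exists_mul_pow_C v 0 ha
  obtain ⟨j2, h2⟩ := exists_mul_pow_C v 0 hb
  have hu := pow_ne_zero (max j1 j2) (v.u_ne 0)
  exact ⟨_, _, h1 _ (le_max_left j1 j2), _, h2 _ (le_max_right j1 j2), mul_ne_zero hb0 hu,
    (mul_div_mul_right _ _ hu).symm⟩

include v in
/-- `K` is a finitely generated field -/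
theorem fg_field : ∃ S : Finset K, IntermediateField.adjoin ℂ (S : Set K) = ⊤ := by
  obtain ⟨S, hS⟩ := v.fg 0
  refine ⟨S, eq_top_iff.2 fun f _ => ?_⟩
  obtain ⟨a, ha, b, hb, rfl⟩ := v.frac 0 f
  rw [← hS] at ha hb
  exact div_mem (IntermediateField.algebra_adjoin_le_adjoin ℂ _ ha)
    (IntermediateField.algebra_adjoin_le_adjoin ℂ _ hb)

/-- functions on the complement of the zero set of a section `t` of degree `k` -/
def away {k : ℕ} {t : K} (ht : t ∈ sec v k) : Subalgebra ℂ K where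
  carrier := {f | ∃ j, f * t ^ j ∈ sec v (j * k)}
  add_mem' := by
    rintro a b ⟨i, hi⟩ ⟨j, hj⟩
    refine ⟨i + j, ?_⟩
    have h1 := mul_mem_sec v _ _ _ hi _ (pow_mem_sec v ht j)
    have h2 := mul_mem_sec v _ _ _ (pow_mem_sec v ht i) _ hj
    rw [← add_mul] at h1 h2
    convert add_mem h1 h2 using 1
    ring
  mul_mem' := by
    rintro a b ⟨i, hi⟩ ⟨j, hj⟩
    refine ⟨i + j, ?_⟩
    have h1 := mul_mem_sec v _ _ _ hi _ hj
    rw [← add_mul] at h1
    convert h1 using 1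
    ring
  algebraMap_mem' := fun c => ⟨0, by
    rw [pow_zero, mul_one, zero_mul, Algebra.algebraMap_eq_smul_one]
    exact Submodule.smul_mem _ c (one_mem_sec v)⟩

theorem mem_away {k : ℕ} {t : K} (ht : t ∈ sec v k) {f : K} :
    f ∈ away v ht ↔ ∃ j, f * t ^ j ∈ sec v (j * k) := Iff.rfl

theorem mem_away_ge {k : ℕ} {t : K} (ht : t ∈ sec v k) {f : K} (hf : f ∈ away v ht) :
    ∃ j, ∀ j', j ≤ j' → f * t ^ j' ∈ sec v (j' * k) := by
  obtain ⟨j, hj⟩ := hf
  refine ⟨j, fun j' h => ?_⟩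
  obtain ⟨d, rfl⟩ := Nat.exists_eq_add_of_le h
  have h1 := mul_mem_sec v _ _ _ hj _ (pow_mem_sec v ht d)
  rw [← add_mul] at h1
  convert h1 using 1
  ring

theorem div_mem_away {k : ℕ} {t : K} (ht : t ∈ sec v k) (ht0 : t ≠ 0) {j : ℕ} {s : K}
    (hs : s ∈ sec v (j * k)) : s / t ^ j ∈ away v ht :=
  ⟨j, by rwa [div_mul_cancel₀ _ (pow_ne_zero _ ht0)]⟩

end Crest.Agent.R271.S2
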