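import Crest.Agent.R271.S2.Fam

/-! # Row 271, block S2: the affine chart `{t 0 ≠ 0}` -/

set_option autoImplicit false

open Set

noncomputable section

namespace Crest.Agent.R271.S2

variable {n : ℕ} {K : Type} [Field K] [Algebra ℂ K] (v : VM n K)

/-- the chart is finite over `ℂ[z]` -/
theorem away_fin {k : ℕ} (hk : 0 < k) {t : Fin (n + 1) → K} (ht : ∀ i, t i ∈ sec v k)
    (h0 : t 0 ≠ 0) (hfin : FinOver (sec v) k t) :
    ∃ s : Finset K, (∀ r ∈ s, r ∈ away v (ht 0)) ∧ ∀ f ∈ away v (ht 0),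
      f ∈ Submodule.span (Algebra.adjoin ℂ (range fun i : Fin n => t i.succ / t 0)) (s : Set K) := by
  classical
  obtain ⟨q, r, dg, hr, hR⟩ := hfin
  refine ⟨(Finset.univ.filter fun i => k ∣ dg i).image fun i => r i / t 0 ^ (dg i / k), ?_, ?_⟩
  · intro f hf
    obtain ⟨i, hi, rfl⟩ := Finset.mem_image.1 hf
    refine div_mem_away v (ht 0) h0 ?_
    rw [Nat.div_mul_cancel (Finset.mem_filter.1 hi).2]
    exact hr i
  · rintro f ⟨j, hj⟩
    have e : f = f * t 0 ^ j / t 0 ^ j := by field_simp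
    rw [e]
    have hj' := hR _ hj
    generalize f * t 0 ^ j = g at hj'
    induction hj' using Submodule.span_induction with
    | mem g hg =>
      obtain ⟨i, e, he, rfl⟩ := hg
      have hd : k ∣ dg i := (Nat.dvd_add_right (Dvd.intro _ rfl)).1 (he ▸ Dvd.intro_left j rfl)
      obtain ⟨m, hm⟩ := hd
      have hj : j = ∑ a, e a + m := by
        apply Nat.eq_of_mul_eq_mul_left hk
        rw [mul_add, ← hm, he, mul_comm]
      have hB : ∏ a, (t a / t 0) ^ e a ∈
          Algebra.adjoin ℂ (range fun i : Fin n => t i.succ / t 0) := by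
        refine prod_mem fun a _ => pow_mem ?_ _
        refine Fin.cases ?_ (fun a => Algebra.subset_adjoin ⟨a, rfl⟩) a
        rw [div_self h0]
        exact one_mem _
      have := Submodule.smul_mem (Submodule.span
        (Algebra.adjoin ℂ (range fun i : Fin n => t i.succ / t 0))
        (((Finset.univ.filter fun i => k ∣ dg i).image fun i => r i / t 0 ^ (dg i / k) :
          Finset K) : Set K)) ⟨_, hB⟩ (Submodule.subset_span (Finset.mem_coe.2
            (Finset.mem_image.2 ⟨i, Finset.mem_filter.2 ⟨Finset.mem_univ _, ⟨m, hm⟩⟩, rfl⟩)))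
      convert this using 1
      rw [hm, Nat.mul_div_cancel_left _ hk, hj, Subalgebra.smul_def, smul_eq_mul]
      simp only [div_pow, Finset.prod_div_distrib, Finset.prod_pow_eq_pow_sum, pow_add]
      field_simp
    | zero => simp
    | add a b _ _ ha hb => rw [add_div]; exact add_mem ha hb
    | smul a b _ hb =>
      rw [smul_div_assoc]
      exact Submodule.smul_of_tower_mem _ a hb

/-- `n` functions over which the function field is algebraic are independent -/
theorem indep_of_fin (htr : Algebra.trdeg ℂ K = n) (z : Fin n → K) (C : Subalgebra ℂ K)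
    (hzC : ∀ i, z i ∈ C) (s : Finset K) (hsC : ∀ r ∈ s, r ∈ C)
    (hs : ∀ f ∈ C, f ∈ Submodule.span (Algebra.adjoin ℂ (range z)) (s : Set K))
    (hfrac : ∀ f : K, ∃ a ∈ C, ∃ b ∈ C, f = a / b) : AlgebraicIndependent ℂ z := by
  have hBC : Algebra.adjoin ℂ (range z) ≤ C := Algebra.adjoin_le (by rintro _ ⟨i, rfl⟩; exact hzC i)
  have hle : ∀ f ∈ Submodule.span (Algebra.adjoin ℂ (range z)) (s : Set K), f ∈ C := by
    intro f hf
    induction hf using Submodule.span_induction with
    | mem g hg => exact hsC g hg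
    | zero => exact zero_mem _
    | add a b _ _ ha hb => exact add_mem ha hb
    | smul a b _ hb => exact mul_mem (hBC a.2) hb
  have hint : ∀ f ∈ C, IsIntegral (Algebra.adjoin ℂ (range z)) f := fun f hf =>
    isIntegral_of_smul_mem_submodule (Submodule.span (Algebra.adjoin ℂ (range z)) (s : Set K))
      (fun h => by
        have := hs 1 (one_mem _)
        rw [h] at this
        exact one_ne_zero ((Submodule.mem_bot _).1 this))
      ⟨s, rfl⟩ f fun g hg => hs _ (mul_mem hf (hle g hg))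
  have : Algebra.IsAlgebraic (Algebra.adjoin ℂ (range z)) K := ⟨fun f => by
    obtain ⟨a, ha, b, hb, rfl⟩ := hfrac f
    rw [div_eq_mul_inv]
    exact (hint a ha).isAlgebraic.mul (hint b hb).isAlgebraic.inv⟩
  exact (Algebra.IsAlgebraic.isTranscendenceBasis_of_le_trdeg_of_finite ℂ z (by simp [htr])).1

/-- the chart `{t ≠ 0}` lies in the local ring at `x` -/
theorem away_le {j : ℕ} {t : K} (ht : t ∈ sec v (j * v.k₀)) (h0 : ev v.x (t / v.u 0 ^ j) ≠ 0) :
    away v ht ≤ locR v.x := by
  rintro f ⟨m, hm⟩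
  rw [← mul_assoc] at hm
  have h1 := le_locR v.x (div_mem_C v 0 ht)
  have h2 := mul_mem (le_locR v.x (div_mem_C v 0 hm)) (pow_mem (inv_mem_locR v.x h1 h0) m)
  have h3 : t ≠ 0 := fun h => ne_zero_of_ev v.x h0 (by rw [h, zero_div])
  have := v.u_ne 0
  convert h2 using 1
  rw [inv_div, div_pow, ← pow_mul, mul_comm j m]
  field_simp

/-- functions on the chart `0` become regular on `{t ≠ 0}` after multiplication by a unit at `x` -/
theorem exists_mul_mem_away {j : ℕ} (hj : 0 < j) {t : K} (ht : t ∈ sec v (j * v.k₀)) (h0 : t ≠ 0)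
    {a : K} (ha : a ∈ v.C 0) :
    ∃ m, ∀ m', m ≤ m' → a * (t / v.u 0 ^ j)⁻¹ ^ m' ∈ away v ht := by
  obtain ⟨m, hm⟩ := exists_mul_pow_C v 0 ha
  refine ⟨m, fun m' h => ?_⟩
  have h1 := hm (m' * j) (h.trans (Nat.le_mul_of_pos_right _ hj))
  rw [mul_assoc m'] at h1
  convert div_mem_away v ht h0 h1 using 1
  rw [inv_div, div_pow, ← pow_mul, mul_comm j m', mul_div_assoc]

/-- prime divisors through `x` dominate the local ring -/
theorem thr_mem {z : v.ι} (hz : v.Thr z) {f : K} (hf : f ∈ locR v.x) :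
    f ∈ v.O z ∧ (ev v.x f ≠ 0 → v.ord z f = 0) := by
  obtain ⟨a, b, hb, h⟩ := hf
  have hb0 : (b : K) ≠ 0 := fun h0 => hb (by rw [show b = 0 from Subtype.ext h0, map_zero])
  have hbo := hz.2 b hb
  by_cases hf0 : f = 0
  · subst hf0
    exact ⟨zero_mem _, fun h0 => (h0 (ev_zero _)).elim⟩
  have h1 := v.ord_mul z _ _ hb0 hf0
  rw [h, hbo, zero_add] at h1
  refine ⟨?_, fun h0 => ?_⟩
  · rw [v.mem_O, ← h1]
    have := (v.mem_O z a).1 ((v.mem_C 0 a).1 a.2 z hz.1)
    refine Or.inr (this.resolve_left ?_)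
    rw [← h]
    exact mul_ne_zero hb0 hf0
  · rw [ev_spec v.x hb h] at h0
    rw [← h1]
    exact hz.2 a fun h2 => h0 (by rw [h2, zero_div])

end Crest.Agent.R271.S2
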