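import Mathlib

/-! # Row 271, block S2: the local ring of a point, as a subalgebra of the function field -/

set_option autoImplicit false

open Set

noncomputable section

namespace Crest.Agent.R271.S2

variable {K : Type} [Field K] [Algebra ℂ K] {C : Subalgebra ℂ K} (x : C →ₐ[ℂ] ℂ)

/-- the local ring at `x` -/
def locR : Subalgebra ℂ K where
  carrier := {f | ∃ a b : C, x b ≠ 0 ∧ (b : K) * f = a}
  add_mem' := by
    rintro f g ⟨a, b, hb, h⟩ ⟨a', b', hb', h'⟩
    refine ⟨a * b' + a' * b, b * b', by rw [map_mul]; exact mul_ne_zero hb hb', ?_⟩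
    push_cast
    rw [← h, ← h']
    ring
  mul_mem' := by
    rintro f g ⟨a, b, hb, h⟩ ⟨a', b', hb', h'⟩
    refine ⟨a * a', b * b', by rw [map_mul]; exact mul_ne_zero hb hb', ?_⟩
    push_cast
    rw [← h, ← h']
    ring
  algebraMap_mem' := fun c => ⟨algebraMap ℂ C c, 1, by simp, by simp⟩

theorem mem_locR {f : K} : f ∈ locR x ↔ ∃ a b : C, x b ≠ 0 ∧ (b : K) * f = a := Iff.rfl

theorem le_locR : C ≤ locR x := fun f hf => ⟨⟨f, hf⟩, 1, by simp, by simp⟩

open Classical in
/-- the value at `x` -/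
def ev (f : K) : ℂ :=
  if h : f ∈ locR x then x h.choose / x h.choose_spec.choose else 0

theorem ev_spec {f : K} {a b : C} (hb : x b ≠ 0) (h : (b : K) * f = a) : ev x f = x a / x b := by
  have hf : f ∈ locR x := ⟨a, b, hb, h⟩
  rw [ev, dif_pos hf]
  obtain ⟨hb', h'⟩ := hf.choose_spec.choose_spec
  rw [div_eq_div_iff hb' hb, ← map_mul, ← map_mul]
  congr 1
  apply Subtype.ext
  push_cast
  linear_combination (-(b : K)) * h' + (hf.choose_spec.choose : K) * h

theorem ev_coe (a : C) : ev x (a : K) = x a := by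
  rw [ev_spec x (a := a) (b := 1) (by simp) (by simp)]
  simp

theorem ev_add {f g : K} (hf : f ∈ locR x) (hg : g ∈ locR x) : ev x (f + g) = ev x f + ev x g := by
  obtain ⟨a, b, hb, h⟩ := hf
  obtain ⟨a', b', hb', h'⟩ := hg
  rw [ev_spec x hb h, ev_spec x hb' h', ev_spec x (a := a * b' + a' * b) (b := b * b')
    (by rw [map_mul]; exact mul_ne_zero hb hb') (by push_cast; rw [← h, ← h']; ring)]
  simp only [map_add, map_mul]
  field_simp

theorem ev_mul {f g : K} (hf : f ∈ locR x) (hg : g ∈ locR x) : ev x (f * g) = ev x f * ev x g := by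
  obtain ⟨a, b, hb, h⟩ := hf
  obtain ⟨a', b', hb', h'⟩ := hg
  rw [ev_spec x hb h, ev_spec x hb' h', ev_spec x (a := a * a') (b := b * b')
    (by rw [map_mul]; exact mul_ne_zero hb hb') (by push_cast; rw [← h, ← h']; ring)]
  simp only [map_mul]
  field_simp

theorem ev_algebraMap (c : ℂ) : ev x (algebraMap ℂ K c) = c := by
  have := ev_coe x (algebraMap ℂ C c)
  simpa using this

theorem ev_one : ev x 1 = 1 := by simpa using ev_algebraMap x 1

theorem ev_zero : ev x 0 = 0 := by simpa using ev_algebraMap x 0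

/-- evaluation on a subalgebra of the local ring -/
def evHom (A : Subalgebra ℂ K) (h : A ≤ locR x) : A →ₐ[ℂ] ℂ where
  toFun a := ev x a
  map_one' := ev_one x
  map_mul' a b := ev_mul x (h a.2) (h b.2)
  map_zero' := ev_zero x
  map_add' a b := ev_add x (h a.2) (h b.2)
  commutes' c := ev_algebraMap x c

theorem evHom_apply (A : Subalgebra ℂ K) (h : A ≤ locR x) (a : A) : evHom x A h a = ev x a := rfl

theorem ev_pow {f : K} (hf : f ∈ locR x) (m : ℕ) : ev x (f ^ m) = ev x f ^ m :=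
  map_pow (evHom x (locR x) le_rfl) ⟨f, hf⟩ m

theorem ne_zero_of_ev {f : K} (h : ev x f ≠ 0) : f ≠ 0 := by
  rintro rfl
  exact h (ev_zero x)

theorem inv_mem_locR {f : K} (hf : f ∈ locR x) (h0 : ev x f ≠ 0) : f⁻¹ ∈ locR x := by
  have hf0 := ne_zero_of_ev x h0
  obtain ⟨a, b, hb, h⟩ := hf
  rw [ev_spec x hb h] at h0
  refine ⟨b, a, fun h1 => h0 (by simp [h1]), ?_⟩
  rw [← h]
  field_simp

theorem ev_inv {f : K} (hf : f ∈ locR x) (h0 : ev x f ≠ 0) : ev x f⁻¹ = (ev x f)⁻¹ := by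
  have := ev_mul x hf (inv_mem_locR x hf h0)
  rw [mul_inv_cancel₀ (ne_zero_of_ev x h0), ev_one] at this
  exact eq_inv_of_mul_eq_one_right this.symm

/-- the maximal ideal is spanned by `y` modulo its square -/
theorem exists_sub_mem_sq {n : ℕ} (y : Fin n → C)
    (hy : ∀ i, x (y i) = 0)
    (hreg : ∀ a, x a = 0 → ∃ b, x b ≠ 0 ∧ b * a ∈ Ideal.span (range y)) (a : C) :
    ∃ (c₀ : ℂ) (c : Fin n → ℂ), a - (c₀ • 1 + ∑ i, c i • y i) ∈
      RingHom.ker x * RingHom.ker x := by
  obtain ⟨b, hb, hba⟩ := hreg (a - x a • 1) (by simp)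
  obtain ⟨e, he⟩ := Ideal.mem_span_range_iff_exists_fun.1 hba
  refine ⟨x a, fun i => x (e i) / x b, ?_⟩
  have h1 : (b - x b • 1) * (a - x a • 1) ∈ RingHom.ker x * RingHom.ker x :=
    Ideal.mul_mem_mul (by simp [RingHom.mem_ker]) (by simp [RingHom.mem_ker])
  have h2 : ∑ i, (e i - x (e i) • 1) * y i ∈ RingHom.ker x * RingHom.ker x :=
    Ideal.sum_mem _ fun i _ => Ideal.mul_mem_mul (by simp [RingHom.mem_ker]) (hy i)
  have h3 := Ideal.mul_mem_left _ (algebraMap ℂ C (x b)⁻¹) (sub_mem h2 h1)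
  convert h3 using 1
  rw [← Algebra.smul_def]
  simp only [sub_mul, Finset.sum_sub_distrib, he, smul_mul_assoc, one_mul]
  have : ∑ i, (x (e i) / x b) • y i = (x b)⁻¹ • ∑ i, x (e i) • y i := by
    rw [Finset.smul_sum]
    exact Finset.sum_congr rfl fun i _ => by rw [smul_smul, div_eq_inv_mul]
  rw [this]
  have h4 : (x b)⁻¹ • x b • (a - x a • 1) = a - x a • (1 : C) := by
    rw [smul_smul, inv_mul_cancel₀ hb, one_smul]
  rw [smul_sub, smul_sub, smul_sub, h4]
  abel

/-- Nakayama: a perturbation of `y` by elements of `𝔪²` still generates `𝔪` locally -/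
theorem exists_mul_mem_span (hC : C.FG) {n : ℕ} (y y' : Fin n → C)
    (hy : ∀ i, x (y i) = 0)
    (hreg : ∀ a, x a = 0 → ∃ b, x b ≠ 0 ∧ b * a ∈ Ideal.span (range y))
    (hy' : ∀ i, y' i - y i ∈ RingHom.ker x * RingHom.ker x) :
    ∃ b, x b ≠ 0 ∧ ∀ a, x a = 0 → b * a ∈ Ideal.span (range y') := by
  have : Algebra.FiniteType ℂ C := (Subalgebra.fg_iff_finiteType C).1 hC
  have : IsNoetherianRing C := Algebra.FiniteType.isNoetherianRing ℂ C
  have hle : RingHom.ker x ≤ Ideal.span (range y') ⊔ RingHom.ker x • RingHom.ker x := by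
    intro a ha
    obtain ⟨c₀, c, h⟩ := exists_sub_mem_sq x y hy hreg a
    have hc₀ : c₀ = 0 := by
      have h1 : x (a - (c₀ • 1 + ∑ i, c i • y i)) = 0 := Ideal.mul_le_left h
      have h2 : x a = 0 := ha
      simpa [hy, h2] using h1
    rw [hc₀, zero_smul, zero_add] at h
    have e : a = ∑ i, c i • y' i + ((a - ∑ i, c i • y i) - ∑ i, c i • (y' i - y i)) := by
      simp only [smul_sub, Finset.sum_sub_distrib]
      abel
    rw [e]
    refine add_mem (Submodule.mem_sup_left (Ideal.sum_mem _ fun i _ => ?_))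
      (Submodule.mem_sup_right (sub_mem h (Ideal.sum_mem _ fun i _ => ?_)))
    · rw [Algebra.smul_def]
      exact Ideal.mul_mem_left _ _ (Ideal.subset_span ⟨i, rfl⟩)
    · rw [Algebra.smul_def]
      exact Ideal.mul_mem_left _ _ (hy' i)
  obtain ⟨r, hr1, hr⟩ := Submodule.exists_sub_one_mem_and_smul_le_of_fg_of_le_sup
    (I := RingHom.ker x) (N' := RingHom.ker x) (N := Ideal.span (range y'))
    (P := RingHom.ker x) (IsNoetherian.noetherian _) le_rfl hle
  refine ⟨r, ?_, fun a ha => hr (Submodule.smul_mem_pointwise_smul a r _ ha)⟩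
  have : x (r - 1) = 0 := hr1
  rw [map_sub, map_one, sub_eq_zero] at this
  rw [this]
  exact one_ne_zero

end Crest.Agent.R271.S2
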