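import Mathlib

/-! # Row 271, block S2: Noether normalisation in the language of valuations -/

set_option autoImplicit false

open Set

namespace Crest.Agent.R271.S2

theorem noe_const {K : Type} [Field K] [Algebra ℂ K] (V : ValuationSubring K)
    (hV : ∀ a : ℂ, algebraMap ℂ K a ∈ V) (a : ℂ) : V.valuation (algebraMap ℂ K a) ≤ 1 :=
  (V.valuation_le_one_iff _).2 (hV a)

theorem noe_const_eq {K : Type} [Field K] [Algebra ℂ K] (V : ValuationSubring K)
    (hV : ∀ a : ℂ, algebraMap ℂ K a ∈ V) {a : ℂ} (ha : a ≠ 0) : V.valuation (algebraMap ℂ K a) = 1 := by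
  refine le_antisymm (noe_const V hV a) ?_
  have h : V.valuation (algebraMap ℂ K a) * V.valuation (algebraMap ℂ K a⁻¹) = 1 := by
    rw [← map_mul, ← map_mul, mul_inv_cancel₀ ha, map_one, map_one]
  rw [← h]
  exact mul_le_of_le_one_right' (noe_const V hV _)

theorem noe_eval {K : Type} [Field K] [Algebra ℂ K] (V : ValuationSubring K)
    (hV : ∀ a : ℂ, algebraMap ℂ K a ∈ V) {ι : Type} (x : ι → K) (c : ι → ℂ)
    (h : ∀ i, V.valuation (x i - algebraMap ℂ K (c i)) < 1) (F : MvPolynomial ι ℂ) :
    V.valuation (MvPolynomial.aeval x F - algebraMap ℂ K (MvPolynomial.eval c F)) < 1 := by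
  induction F using MvPolynomial.induction_on with
  | C a => simp
  | add p q hp hq =>
    rw [map_add, map_add, map_add, add_sub_add_comm]
    exact Valuation.map_add_lt _ hp hq
  | mul_X p i hp =>
    have h1 : V.valuation (MvPolynomial.aeval x p) ≤ 1 := by
      rw [← sub_add_cancel (MvPolynomial.aeval x p) (algebraMap ℂ K (MvPolynomial.eval c p))]
      exact Valuation.map_add_le _ hp.le (noe_const V hV _)
    have e : MvPolynomial.aeval x (p * MvPolynomial.X i) -
        algebraMap ℂ K (MvPolynomial.eval c (p * MvPolynomial.X i)) =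
        MvPolynomial.aeval x p * (x i - algebraMap ℂ K (c i)) +
          (MvPolynomial.aeval x p - algebraMap ℂ K (MvPolynomial.eval c p)) * algebraMap ℂ K (c i) := by
      simp only [map_mul, MvPolynomial.aeval_X, MvPolynomial.eval_X]
      ring
    rw [e]
    refine Valuation.map_add_lt _ ?_ ?_
    · rw [map_mul]
      exact lt_of_le_of_lt (mul_le_of_le_one_left' h1) (h i)
    · rw [map_mul]
      exact lt_of_le_of_lt (mul_le_of_le_one_right' (noe_const V hV _)) hp

/-- One step.  `w : ι → K` with `n < card ι + 1`... precisely: `n ≤ trdeg`-bound `trdeg ℂ K = n < card ι`, and one more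
element `s`.  There are constants `c i` such that at every valuation ring `V ⊇ ℂ`, `s` is dominated by some `w i - c i • s`.
Recipe: if `s = 0` take `c = 0`.  Otherwise the family `w i / s` has more than `n` elements, so it is not algebraically
independent (`AlgebraicIndependent.cardinalMk_le_trdeg` / `lift_cardinalMk_le_trdeg`): there is `F ≠ 0` in
`MvPolynomial ι ℂ` with `aeval (w i / s) F = 0`; pick `c` with `eval c F ≠ 0` (`MvPolynomial.funext`).  If
`V.valuation (w i - c i • s) < V.valuation s` for all `i`, then `w i / s - c i` lies in the maximal ideal of `V`, hence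
`aeval (w i / s) F - algebraMap (eval c F)` has valuation `< 1` (induction on `F`: the statement
`val (aeval (w/s) F) ≤ 1 ∧ val (aeval (w/s) F - algebraMap (eval c F)) < 1`), but a nonzero constant has valuation `1`. -/
theorem noether_step {K : Type} [Field K] [Algebra ℂ K] {n : ℕ} (htr : Algebra.trdeg ℂ K = n)
    {ι : Type} [Fintype ι] (hι : n < Fintype.card ι) (w : ι → K) (s : K) :
    ∃ c : ι → ℂ, ∀ V : ValuationSubring K, (∀ a : ℂ, algebraMap ℂ K a ∈ V) →
      ∃ i, V.valuation s ≤ V.valuation (w i - c i • s) := by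
  by_cases hs : s = 0
  · obtain ⟨i⟩ : Nonempty ι := Fintype.card_pos_iff.1 (by omega)
    exact ⟨0, fun V _ => ⟨i, by simp [hs]⟩⟩
  have hdep : ¬AlgebraicIndependent ℂ fun i => w i / s := fun h => by
    have := h.cardinalMk_le_trdeg
    rw [htr, Cardinal.mk_fintype, Nat.cast_le] at this
    omega
  rw [algebraicIndependent_iff] at hdep
  push Not at hdep
  obtain ⟨F, hF, hF0⟩ := hdep
  obtain ⟨c, hc⟩ : ∃ c : ι → ℂ, MvPolynomial.eval c F ≠ 0 := by
    by_contra h
    push Not at h
    exact hF0 (MvPolynomial.funext fun c => by rw [h c, map_zero])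
  refine ⟨c, fun V hV => ?_⟩
  by_contra h
  push Not at h
  have hpos : 0 < V.valuation s := zero_lt_iff.2 ((map_ne_zero _).2 hs)
  have := noe_eval V hV (fun i => w i / s) c (fun i => by
    have e : w i / s - algebraMap ℂ K (c i) = (w i - c i • s) / s := by
      rw [Algebra.smul_def]
      field_simp
    rw [e, map_div₀, div_lt_one₀ hpos]
    exact h i) F
  rw [hF, zero_sub, Valuation.map_neg, noe_const_eq V hV hc] at this
  exact lt_irrefl _ this

theorem noe_smul {K : Type} [Field K] [Algebra ℂ K] (V : ValuationSubring K)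
    (hV : ∀ a : ℂ, algebraMap ℂ K a ∈ V) (a : ℂ) (x : K) : V.valuation (a • x) ≤ V.valuation x := by
  rw [Algebra.smul_def, map_mul]
  exact mul_le_of_le_one_left' (noe_const V hV a)

theorem noe_span {K : Type} [Field K] [Algebra ℂ K] (V : ValuationSubring K)
    (hV : ∀ a : ℂ, algebraMap ℂ K a ∈ V) {S : Set K} {γ : V.ValueGroup} (h : ∀ x ∈ S, V.valuation x ≤ γ)
    {s : K} (hs : s ∈ Submodule.span ℂ S) : V.valuation s ≤ γ := by
  induction hs using Submodule.span_induction with
  | mem x hx => exact h x hx
  | zero => simp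
  | add x y _ _ hx hy => exact Valuation.map_add_le _ hx hy
  | smul a x _ hx => exact (noe_smul V hV a x).trans hx

/-- Noether normalisation: `p` can be corrected by linear combinations of `q` so that the new family dominates the
span of `p` and `q` at every valuation ring.
Recipe: induction on `m` (for all `p q`).  `m = 0`: `t = p`; an element of the span is dominated by a `p i` of maximal valuation
(`Submodule.span_induction` with `i` maximising `V.valuation (p i)`; constants have valuation `≤ 1`).
`m + 1`: `noether_step` with `ι = Fin (n+1) ⊕ Fin m`, `w = Sum.elim p (fun a => q a.succ)`, `s = q 0`; apply the induction hypothesis to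
`p' i = p i - c • s`, `q' a = q a.succ - c • s`; `s` is dominated by some `p' i` or `q' a`, which is dominated by some `t i`;
choose `i` maximising `V.valuation (t i)`: `{f | V.valuation f ≤ V.valuation (t i)}` is a `ℂ`-submodule containing `s`, `p'`, `q'`. -/
theorem noether {K : Type} [Field K] [Algebra ℂ K] {n : ℕ} (htr : Algebra.trdeg ℂ K = n) (m : ℕ)
    (p : Fin (n + 1) → K) (q : Fin m → K) :
    ∃ t : Fin (n + 1) → K, (∀ i, t i - p i ∈ Submodule.span ℂ (range q)) ∧
      ∀ V : ValuationSubring K, (∀ a : ℂ, algebraMap ℂ K a ∈ V) →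
        ∀ s ∈ Submodule.span ℂ (range p ∪ range q), ∃ i, V.valuation s ≤ V.valuation (t i) := by
  induction m generalizing p with
  | zero =>
    refine ⟨p, fun i => by simp, fun V hV s hs => ?_⟩
    obtain ⟨i, hi⟩ := Finite.exists_max fun i => V.valuation (p i)
    refine ⟨i, noe_span V hV ?_ hs⟩
    rintro x (⟨j, rfl⟩ | ⟨a, -⟩)
    · exact hi j
    · exact a.elim0
  | succ m ih =>
    obtain ⟨c, hc⟩ := noether_step htr (ι := Fin (n + 1) ⊕ Fin m) (by simp; omega)
      (Sum.elim p fun a => q a.succ) (q 0)
    obtain ⟨t, ht, ht'⟩ := ih (fun i => p i - c (Sum.inl i) • q 0) fun a => q a.succ - c (Sum.inr a) • q 0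
    have h0 : q 0 ∈ Submodule.span ℂ (range q) := Submodule.subset_span ⟨0, rfl⟩
    refine ⟨t, fun i => ?_, fun V hV s hs => ?_⟩
    · have h1 : Submodule.span ℂ (range fun a : Fin m => q a.succ - c (Sum.inr a) • q 0) ≤
          Submodule.span ℂ (range q) := by
        rw [Submodule.span_le]
        rintro _ ⟨a, rfl⟩
        exact Submodule.sub_mem _ (Submodule.subset_span ⟨_, rfl⟩) (Submodule.smul_mem _ _ h0)
      have h2 := Submodule.sub_mem _ (h1 (ht i)) (Submodule.smul_mem _ (c (Sum.inl i)) h0)
      convert h2 using 1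
      ring
    · obtain ⟨i, hi⟩ := Finite.exists_max fun i => V.valuation (t i)
      have hp : ∀ j, V.valuation (p j - c (Sum.inl j) • q 0) ≤ V.valuation (t i) := fun j => by
        obtain ⟨l, hl⟩ := ht' V hV _ (Submodule.subset_span (Or.inl ⟨j, rfl⟩))
        exact hl.trans (hi l)
      have hq : ∀ a : Fin m, V.valuation (q a.succ - c (Sum.inr a) • q 0) ≤ V.valuation (t i) := fun a => by
        obtain ⟨l, hl⟩ := ht' V hV _ (Submodule.subset_span (Or.inr ⟨a, rfl⟩))
        exact hl.trans (hi l)
      have hs0 : V.valuation (q 0) ≤ V.valuation (t i) := by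
        obtain ⟨j | a, hj⟩ := hc V hV
        · exact hj.trans (hp j)
        · exact hj.trans (hq a)
      refine ⟨i, noe_span V hV ?_ hs⟩
      rintro x (⟨j, rfl⟩ | ⟨a, rfl⟩)
      · rw [← sub_add_cancel (p j) (c (Sum.inl j) • q 0)]
        exact Valuation.map_add_le _ (hp j) ((noe_smul V hV _ _).trans hs0)
      · refine Fin.cases hs0 (fun a => ?_) a
        rw [← sub_add_cancel (q a.succ) (c (Sum.inr a) • q 0)]
        exact Valuation.map_add_le _ (hq a) ((noe_smul V hV _ _).trans hs0)

end Crest.Agent.R271.S2
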