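import Crest.Agent.R271.S2.Basic
import Crest.Agent.R271.S2.LocRing
import Crest.Agent.R271.S2.Noether

/-! # Row 271, block S2: the two base point free families -/

set_option autoImplicit false

open Set

noncomputable section

namespace Crest.Agent.R271.S2

variable {n : ℕ} {K : Type} [Field K] [Algebra ℂ K] (v : VM n K)

/-- the family `t` of sections of degree `k` has no base point -/
def NoBP (k : ℕ) {m : ℕ} (t : Fin m → K) : Prop :=
  ∀ V : ValuationSubring K, (∀ a : ℂ, algebraMap ℂ K a ∈ V) →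
    ∃ i, t i ≠ 0 ∧ ∀ l, ∀ s ∈ sec v (l * k), s / t i ^ l ∈ V

/-- `n + 1` sections without base point giving local coordinates at `x` -/
theorem exists_t : ∃ (j : ℕ) (t : Fin (n + 1) → K), 0 < j ∧ (∀ i, t i ∈ sec v (j * v.k₀)) ∧
    NoBP v (j * v.k₀) t ∧ ev v.x (t 0 / v.u 0 ^ j) ≠ 0 ∧
    (∀ i : Fin n, ev v.x (t i.succ / v.u 0 ^ j) = 0) ∧
    ∃ b ∈ v.C 0, ev v.x b ≠ 0 ∧ ∀ a ∈ v.C 0, ev v.x a = 0 →
      ∃ e : Fin n → K, (∀ i, e i ∈ v.C 0) ∧ b * a = ∑ i, e i * (t i.succ / v.u 0 ^ j) := by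
  obtain ⟨y, hy, hreg⟩ := v.reg
  choose jy hjy using fun i => exists_mul_pow_C v 0 (y i).2
  set j := Finset.univ.sup jy + 1 with hj
  have hu0 : v.u 0 ^ j ≠ 0 := pow_ne_zero _ (v.u_ne 0)
  let p : Fin (n + 1) → K := Fin.cons (v.u 0 ^ j) fun i => (y i : K) * v.u 0 ^ j
  have hp : ∀ i, p i ∈ sec v (j * v.k₀) := by
    intro i
    refine Fin.cases ?_ (fun i => ?_) i
    · exact pow_mem_sec v (u_mem v 0) j
    · exact hjy i j ((Finset.le_sup (f := jy) (Finset.mem_univ i)).trans (Nat.le_succ _))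
  let w : Fin (v.N + 1) → v.C 0 := fun a =>
    ⟨v.u a ^ j / v.u 0 ^ j, div_mem_C v 0 (pow_mem_sec v (u_mem v a) j)⟩
  choose c₀ c hc using fun a => exists_sub_mem_sq v.x y hy hreg (w a)
  let q : Fin (v.N + 1) → K := fun a => v.u a ^ j - (c₀ a • p 0 + ∑ i, c a i • p i.succ)
  have hq : ∀ a, q a ∈ sec v (j * v.k₀) := fun a =>
    sub_mem (pow_mem_sec v (u_mem v a) j) (add_mem (Submodule.smul_mem _ _ (hp 0))
      (Submodule.sum_mem _ fun i _ => Submodule.smul_mem _ _ (hp i.succ)))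
  obtain ⟨t, ht, hV⟩ := noether v.trdeg (v.N + 1) p q
  have hm : ∀ f ∈ Submodule.span ℂ (range q), ∃ m : v.C 0,
      m ∈ RingHom.ker v.x * RingHom.ker v.x ∧ f = m * v.u 0 ^ j := by
    intro f hf
    induction hf using Submodule.span_induction with
    | mem f hf =>
      obtain ⟨a, rfl⟩ := hf
      refine ⟨_, hc a, ?_⟩
      simp only [q, p, w, Fin.cons_zero, Fin.cons_succ]
      push_cast
      rw [sub_mul, div_mul_cancel₀ _ hu0, add_mul, Finset.sum_mul]
      simp only [smul_mul_assoc, one_mul]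
    | zero => exact ⟨0, zero_mem _, by simp⟩
    | add f g _ _ hf hg =>
      obtain ⟨m, hm, rfl⟩ := hf
      obtain ⟨m', hm', rfl⟩ := hg
      exact ⟨m + m', add_mem hm hm', by push_cast; ring⟩
    | smul a f _ hf =>
      obtain ⟨m, hm, rfl⟩ := hf
      refine ⟨a • m, ?_, by push_cast; rw [smul_mul_assoc]⟩
      rw [Algebra.smul_def]
      exact Ideal.mul_mem_left _ _ hm
  choose m hm1 hm2 using fun i => hm _ (ht i)
  have hxm : ∀ i, v.x (m i) = 0 := fun i => Ideal.mul_le_left (hm1 i)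
  have ht0 : t 0 / v.u 0 ^ j = ((1 + m 0 : v.C 0) : K) := by
    have := hm2 0
    simp only [p, Fin.cons_zero] at this
    push_cast
    field_simp
    linear_combination this
  have hts : ∀ i : Fin n, t i.succ / v.u 0 ^ j = ((y i + m i.succ : v.C 0) : K) := by
    intro i
    have := hm2 i.succ
    simp only [p, Fin.cons_succ] at this
    push_cast
    field_simp
    linear_combination this
  refine ⟨j, t, Nat.succ_pos _, fun i => ?_, fun V hc => ?_, ?_, fun i => ?_, ?_⟩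
  · have h1 : t i - p i ∈ sec v (j * v.k₀) :=
      (Submodule.span_le.2 (by rintro _ ⟨a, rfl⟩; exact hq a)) (ht i)
    simpa using add_mem h1 (hp i)
  · obtain ⟨i, hi⟩ := v.val V hc
    have hui : v.u i ^ j ≠ 0 := pow_ne_zero _ (v.u_ne i)
    have h1 : v.u i ^ j ∈ Submodule.span ℂ (range p ∪ range q) := by
      have e : v.u i ^ j = q i + (c₀ i • p 0 + ∑ a, c i a • p a.succ) := by simp only [q]; abel
      rw [e]
      exact add_mem (Submodule.subset_span (Or.inr ⟨i, rfl⟩))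
        (add_mem (Submodule.smul_mem _ _ (Submodule.subset_span (Or.inl ⟨0, rfl⟩)))
        (Submodule.sum_mem _ fun a _ =>
          Submodule.smul_mem _ _ (Submodule.subset_span (Or.inl ⟨a.succ, rfl⟩))))
    obtain ⟨i', hi'⟩ := hV V hc _ h1
    have hne : t i' ≠ 0 := by
      intro h
      rw [h, map_zero, le_zero_iff, map_eq_zero] at hi'
      exact hui hi'
    refine ⟨i', hne, fun l s hs => ?_⟩
    have h2 : v.u i ^ j / t i' ∈ V := by
      rw [← V.valuation_le_one_iff, map_div₀]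
      exact div_le_one_of_le₀ hi' zero_le
    rw [← mul_assoc] at hs
    have h3 := mul_mem (hi _ (div_mem_C v i hs)) (pow_mem h2 l)
    convert h3 using 1
    have := v.u_ne i
    rw [div_pow, ← pow_mul, mul_comm j l]
    field_simp
  · rw [ht0, ev_coe]
    simp [hxm]
  · rw [hts, ev_coe]
    simp [hxm, hy]
  · obtain ⟨b, hb, hba⟩ := exists_mul_mem_span v.x (v.fg 0) y (fun i => y i + m i.succ) hy hreg
      (fun i => by simpa using hm1 i.succ)
    refine ⟨b, b.2, by rwa [ev_coe], fun a ha hxa => ?_⟩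
    obtain ⟨e, he⟩ := Ideal.mem_span_range_iff_exists_fun.1
      (hba ⟨a, ha⟩ (by rw [← ev_coe]; exact hxa))
    refine ⟨fun i => e i, fun i => (e i).2, ?_⟩
    have := congrArg (fun a : v.C 0 => (a : K)) he
    simp only [hts]
    push_cast at this ⊢
    exact this.symm

/-- a base point free family in degree prime to `j k₀`, with a member not vanishing at `x` -/
theorem exists_t' (j : ℕ) (hj : 0 < j) : ∃ (d N' : ℕ) (t' : Fin (N' + 1) → K),
    (∀ i, t' i ∈ sec v (1 + d * (j * v.k₀))) ∧ NoBP v (1 + d * (j * v.k₀)) t' ∧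
    ev v.x (t' 0 ^ v.k₀ / v.u 0 ^ (1 + d * (j * v.k₀))) ≠ 0 := by
  classical
  choose q h c hc hh hsum using v.cartier
  choose jh hjh using fun (a : Σ i, Fin (q i)) => exists_mul_pow v a.1 1 (h a.1 a.2)
    (fun z hz => by simpa using hh a.1 a.2 z hz)
  set d := Finset.univ.sup jh with hd
  let w : (Σ i, Fin (q i)) → K := fun a => h a.1 a.2 * v.u a.1 ^ (d * j)
  have hw : ∀ a, w a ∈ sec v (1 + d * (j * v.k₀)) := fun a => by
    rw [← mul_assoc]
    exact hjh a _ ((Finset.le_sup (f := jh) (Finset.mem_univ a)).trans (Nat.le_mul_of_pos_right _ hj))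
  have hwe : ∀ a, w a ^ v.k₀ / v.u a.1 ^ (1 + d * (j * v.k₀)) = h a.1 a.2 ^ v.k₀ / v.u a.1 := by
    intro a
    have := v.u_ne a.1
    simp only [w]
    rw [mul_pow, ← pow_mul, pow_add, pow_one, mul_assoc]
    field_simp
  have hC : ∀ a : Σ i, Fin (q i), h a.1 a.2 ^ v.k₀ / v.u a.1 ∈ v.C a.1 := fun a => by
    rw [← hwe]
    refine div_mem_C v _ ?_
    rw [mul_comm]
    exact pow_mem_sec v (hw a) _
  obtain ⟨a₀, ha₀⟩ : ∃ a, ev v.x (h 0 a ^ v.k₀ / v.u 0) ≠ 0 := by
    by_contra hcon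
    push Not at hcon
    have h1 : (∑ a, (⟨c 0 a, hc 0 a⟩ : v.C 0) * ⟨_, hC ⟨0, a⟩⟩ : v.C 0) = 1 := by
      apply Subtype.ext
      push_cast
      exact hsum 0
    have h2 := congrArg v.x h1
    rw [map_sum, map_one, Finset.sum_eq_zero] at h2
    · exact zero_ne_one h2
    · intro a _
      rw [map_mul, ← ev_coe v.x ⟨_, hC ⟨0, a⟩⟩, hcon a, mul_zero]
  let e := Fintype.equivFin (Σ i, Fin (q i))
  refine ⟨d, _, Fin.cons (w ⟨0, a₀⟩) (fun b => w (e.symm b)), fun i => ?_, fun V hV => ?_, ?_⟩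
  · exact Fin.cases (hw _) (fun i => hw _) i
  · obtain ⟨i, hi⟩ := v.val V hV
    obtain ⟨a, ha⟩ : ∃ a, 1 ≤ V.valuation (h i a ^ v.k₀ / v.u i) := by
      by_contra hcon
      push Not at hcon
      have h1 : V.valuation (∑ a, c i a * (h i a ^ v.k₀ / v.u i)) < 1 := by
        refine Valuation.map_sum_lt _ one_ne_zero fun a _ => ?_
        rw [map_mul]
        exact mul_lt_one_of_nonneg_of_lt_one_right
          ((V.valuation_le_one_iff _).2 (hi _ (hc i a))) zero_le (hcon a)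
      rw [hsum, map_one] at h1
      exact lt_irrefl _ h1
    have hne : h i a ^ v.k₀ / v.u i ≠ 0 := by
      intro h0
      rw [h0, map_zero] at ha
      exact not_lt.2 ha zero_lt_one
    have hh0 : h i a ≠ 0 := by
      intro h0
      exact hne (by rw [h0, zero_pow v.k₀_pos.ne', zero_div])
    have hui := v.u_ne i
    have hinv : (h i a ^ v.k₀ / v.u i)⁻¹ ∈ V := by
      rw [← V.valuation_le_one_iff, map_inv₀]
      exact inv_le_one_of_one_le₀ ha
    refine ⟨(e ⟨i, a⟩).succ, ?_, fun l s hs => ?_⟩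
    · simp only [Fin.cons_succ, Equiv.symm_apply_apply]
      exact mul_ne_zero hh0 (pow_ne_zero _ hui)
    · simp only [Fin.cons_succ, Equiv.symm_apply_apply]
      have h1 := pow_mem_sec v hs v.k₀
      rw [mul_comm] at h1
      have h2 := mul_mem (hi _ (div_mem_C v i h1)) (pow_mem hinv l)
      have h3 : (s / w ⟨i, a⟩ ^ l) ^ v.k₀ ∈ V := by
        convert h2 using 1
        rw [← hwe ⟨i, a⟩]
        have hw0 : w ⟨i, a⟩ ≠ 0 := mul_ne_zero hh0 (pow_ne_zero _ hui)
        rw [div_pow, inv_div, div_pow, ← pow_mul, ← pow_mul, ← pow_mul, mul_comm l v.k₀,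
          mul_comm (1 + d * (j * v.k₀)) l]
        field_simp
      rw [← V.valuation_le_one_iff, map_pow] at h3
      rw [← V.valuation_le_one_iff]
      exact (pow_le_one_iff v.k₀_pos.ne').1 h3
  · simp only [Fin.cons_zero]
    rw [hwe ⟨0, a₀⟩]
    exact ha₀

end Crest.Agent.R271.S2
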