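import Mathlib

/-! # Row 271, block S2: finiteness of the integral closure of an affine `ℂ`-domain -/

set_option autoImplicit false

namespace Crest.Agent.R271.S2

/-- The integral closure of a finitely generated `ℂ`-subalgebra `B` in a finitely generated field `F` algebraic over it is
a finite `B`-module.
Recipe: Noether normalisation `exists_finite_inj_algHom_of_fg ℂ B` gives `g : P := MvPolynomial (Fin s) ℂ →ₐ[ℂ] B` injective and
finite.  Make `F` a `P`-algebra through `g` (`Algebra P F := ((B.val).comp g).toRingHom.toAlgebra`), faithful; `F` is an
algebra over `L := FractionRing P` (`FractionRing.liftAlgebra`), algebraic over `P` (transitivity), so each element of `S` is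
algebraic over `L`; `IntermediateField.adjoin L S = ⊤` (it contains `adjoin ℂ S`), hence `FiniteDimensional L F`
(`IntermediateField.finiteDimensional_adjoin`).  Characteristic zero gives separability;
`IsIntegralClosure.finite P L F (integralClosure P F)`.  An element integral over `B` is integral over `P`
(`isIntegral_trans`) and conversely (`IsIntegral.tower_top`), so generators over `P` generate over `B`
(see `exists_conductor` in `Crest/Agent/R278/DimReg.lean` for a similar argument). -/
theorem finite_integralClosure {F : Type} [Field F] [Algebra ℂ F] (B : Subalgebra ℂ F) (hB : B.FG)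
    (S : Finset F) (hS : IntermediateField.adjoin ℂ (S : Set F) = ⊤)
    (halg : Algebra.IsAlgebraic B F) : Module.Finite B (integralClosure B F) := by
  classical
  haveI : Algebra.FiniteType ℂ B := (Subalgebra.fg_iff_finiteType B).1 hB
  obtain ⟨s, g, hg, hfin⟩ := exists_finite_inj_algHom_of_fg ℂ B
  set P := MvPolynomial (Fin s) ℂ
  letI : Algebra P B := g.toRingHom.toAlgebra
  letI : Algebra P F := (B.val.comp g).toRingHom.toAlgebra
  haveI : IsScalarTower P B F := IsScalarTower.of_algebraMap_eq fun _ => rfl
  haveI : IsScalarTower ℂ P F := IsScalarTower.of_algebraMap_eq fun a => ((B.val.comp g).commutes a).symm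
  haveI : Module.Finite P B := hfin
  have hinj : Function.Injective (algebraMap P F) := Subtype.val_injective.comp hg
  haveI : FaithfulSMul P F := (faithfulSMul_iff_algebraMap_injective P F).2 hinj
  haveI : FaithfulSMul P B := (faithfulSMul_iff_algebraMap_injective P B).2 hg
  letI : Algebra (FractionRing P) F := FractionRing.liftAlgebra P F
  haveI : IsScalarTower P (FractionRing P) F := FractionRing.isScalarTower_liftAlgebra P F
  haveI : Algebra.IsAlgebraic P F := Algebra.IsAlgebraic.trans P B F
  haveI : Algebra.IsAlgebraic (FractionRing P) F :=
    Algebra.IsAlgebraic.extendScalars (R := P) (IsFractionRing.injective P (FractionRing P))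
  have htop : IntermediateField.adjoin (FractionRing P) (S : Set F) = ⊤ := by
    rw [eq_top_iff]
    intro x _
    have hx : x ∈ IntermediateField.adjoin ℂ (S : Set F) := hS ▸ IntermediateField.mem_top
    induction hx using IntermediateField.adjoin_induction with
    | mem x hx => exact IntermediateField.subset_adjoin _ _ hx
    | algebraMap a =>
      rw [IsScalarTower.algebraMap_apply ℂ P F, IsScalarTower.algebraMap_apply P (FractionRing P) F]
      exact IntermediateField.algebraMap_mem _ _
    | add x y _ _ hx hy => exact add_mem (hx trivial) (hy trivial)
    | inv x _ hx => exact inv_mem (hx trivial)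
    | mul x y _ _ hx hy => exact mul_mem (hx trivial) (hy trivial)
  haveI : FiniteDimensional (FractionRing P) F := by
    have h1 : FiniteDimensional (FractionRing P) (IntermediateField.adjoin (FractionRing P) (S : Set F)) :=
      IntermediateField.finiteDimensional_adjoin fun x _ => (Algebra.IsAlgebraic.isAlgebraic x).isIntegral
    rw [htop] at h1
    exact IntermediateField.topEquiv.toLinearEquiv.finiteDimensional
  haveI : CharZero (FractionRing P) := algebraRat.charZero _
  have hP : Module.Finite P (integralClosure P F) := IsIntegralClosure.finite P (FractionRing P) F _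
  have h1 : (Subalgebra.toSubmodule (integralClosure P F)).FG := (Module.Finite.iff_fg).1 hP
  have h2 : Subalgebra.toSubmodule (integralClosure P F) =
      (Subalgebra.toSubmodule (integralClosure B F)).restrictScalars P := by
    ext x
    exact ⟨fun h => IsIntegral.tower_top (R := P) h, fun h => isIntegral_trans (A := B) x h⟩
  rw [h2] at h1
  exact (Module.Finite.iff_fg (N := Subalgebra.toSubmodule (integralClosure B F))).2
    (Submodule.FG.of_restrictScalars P h1)

end Crest.Agent.R271.S2
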