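import Crest.Agent.R271.Defs
import Crest.Agent.R271.S2.IntFin

/-! # Row 271, block S2: a base point free family makes the section ring finite -/

set_option autoImplicit false

open Set

namespace Crest.Agent.R271.S2

/-- integrality from the valuative criterion.
Recipe: `iInf_valuationSubring_superset` with `s = B`; `Subring.closure B = B.toSubring`. -/
theorem isIntegral_of_val {F : Type} [Field F] [Algebra ℂ F] (B : Subalgebra ℂ F) (f : F)
    (h : ∀ V : ValuationSubring F, (∀ b ∈ B, b ∈ V) → f ∈ V) : IsIntegral B f := by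
  have h1 : f ∈ (integralClosure (Subring.closure (B : Set F)) F).toSubring := by
    rw [← iInf_valuationSubring_superset, Subring.mem_iInf]
    exact fun V => h V.1 fun b hb => V.2 hb
  have h2 : IsIntegral (Subring.closure (B : Set F)) f := h1
  have e : Subring.closure (B : Set F) = B.toSubring := Subring.closure_eq B.toSubring
  rw [e] at h2
  exact h2

theorem fin_noeth {A : Type} [CommRing A] [Algebra ℂ A] {m : ℕ} (u : Fin m → A) :
    (Algebra.adjoin ℂ (range u)).FG ∧ IsNoetherianRing (Algebra.adjoin ℂ (range u)) := by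
  have h : (Algebra.adjoin ℂ (range u)).FG := ⟨(Set.finite_range u).toFinset, by simp⟩
  haveI := (Subalgebra.fg_iff_finiteType _).1 h
  exact ⟨h, Algebra.FiniteType.isNoetherianRing ℂ _⟩

/-- graded extraction.  If every `s T^l` (`s ∈ R l`) lies in a finitely generated submodule of `K[T]` over
`B = ℂ[t i T^k]`, then `FinOver R k t`.
Recipe: `B` is Noetherian (f.g. over `ℂ`), `M := span B {monomial l s | s ∈ R l} ≤ N` is f.g., so it is spanned by finitely many
`monomial (dg i) (r i)` with `r i ∈ R (dg i)` (`Submodule.FG` of a span: `Submodule.exists_finset_span…`/`Submodule.mem_span_finite_of_mem_span`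
applied to the generators).  Let `W l` be the span in `FinOver`.  The set of `P : K[X]` with `∀ l, P.coeff l ∈ W l` is closed under
addition, under multiplication by `monomial k (t j)` and by constants, so under `B` (`Algebra.adjoin_induction`), and contains
the generators; apply this to `monomial l s` and take `coeff l`. -/
theorem finOver_of_fg {K : Type} [Field K] [Algebra ℂ K] (R : ℕ → Submodule ℂ K) (k : ℕ) {m : ℕ}
    (t : Fin m → K)
    (N : Submodule (Algebra.adjoin ℂ (range fun i => Polynomial.monomial k (t i))) (Polynomial K))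
    (hN : N.FG) (h : ∀ l, ∀ s ∈ R l, Polynomial.monomial l s ∈ N) : FinOver R k t := by
  classical
  haveI := (fin_noeth fun i => Polynomial.monomial k (t i)).2
  set G : Set (Polynomial K) := {P | ∃ l s, s ∈ R l ∧ Polynomial.monomial l s = P} with hG
  have hM : (Submodule.span (Algebra.adjoin ℂ (range fun i => Polynomial.monomial k (t i))) G).FG :=
    hN.of_le (Submodule.span_le.2 (by rintro _ ⟨l, s, hs, rfl⟩; exact h l s hs))
  obtain ⟨s', hs', hsp⟩ := (Submodule.fg_span_iff_fg_span_finset_subset G).1 hM
  have hch : ∀ i : Fin s'.card, ∃ l s, s ∈ R l ∧ Polynomial.monomial l s = (s'.equivFin.symm i : Polynomial K) :=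
    fun i => hs' (s'.equivFin.symm i).2
  choose dg r hr hr' using hch
  refine ⟨s'.card, r, dg, hr, fun l s hs => ?_⟩
  set W : ℕ → Submodule ℂ K := fun l => Submodule.span ℂ {s | ∃ (i : Fin s'.card) (e : Fin m → ℕ),
      k * ∑ j, e j + dg i = l ∧ s = (∏ j, t j ^ e j) * r i} with hW
  have hmul : ∀ j l, ∀ x ∈ W l, t j * x ∈ W (l + k) := by
    intro j l x hx
    induction hx using Submodule.span_induction with
    | mem x hx =>
      obtain ⟨i, e, he, rfl⟩ := hx
      refine Submodule.subset_span ⟨i, e + Pi.single j 1, ?_, ?_⟩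
      · simp only [Pi.add_apply, Finset.sum_add_distrib, Finset.sum_pi_single', Finset.mem_univ, if_true]
        rw [← he]
        ring
      · simp only [Pi.add_apply, pow_add, Finset.prod_mul_distrib]
        rw [Finset.prod_eq_single j (f := fun i => t i ^ (Pi.single j 1 : Fin m → ℕ) i)
          (fun b _ hb => by simp [hb]) (by simp)]
        simp only [Pi.single_eq_same, pow_one]
        ring
    | zero => simp
    | add x y _ _ hx hy => rw [mul_add]; exact add_mem hx hy
    | smul a x _ hx => rw [mul_smul_comm]; exact Submodule.smul_mem _ _ hx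
  have hB : ∀ b ∈ Algebra.adjoin ℂ (range fun i => Polynomial.monomial k (t i)), ∀ P : Polynomial K,
      (∀ l, P.coeff l ∈ W l) → ∀ l, (b * P).coeff l ∈ W l := by
    intro b hb
    induction hb using Algebra.adjoin_induction with
    | mem x hx =>
      obtain ⟨j, rfl⟩ := hx
      intro P hP l
      simp only []
      rw [← Polynomial.C_mul_X_pow_eq_monomial, mul_assoc, Polynomial.coeff_C_mul, Polynomial.coeff_X_pow_mul']
      split_ifs with hl
      · have := hmul j _ _ (hP (l - k))
        rwa [Nat.sub_add_cancel hl] at this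
      · simp
    | algebraMap a =>
      intro P hP l
      rw [← Algebra.smul_def, Polynomial.coeff_smul]
      exact Submodule.smul_mem _ _ (hP l)
    | add x y _ _ hx hy =>
      intro P hP l
      rw [add_mul, Polynomial.coeff_add]
      exact add_mem (hx P hP l) (hy P hP l)
    | mul x y _ _ hx hy =>
      intro P hP l
      rw [mul_assoc]
      exact hx _ (hy P hP) l
  have key : ∀ P ∈ Submodule.span (Algebra.adjoin ℂ (range fun i => Polynomial.monomial k (t i)))
      (s' : Set (Polynomial K)), ∀ l, P.coeff l ∈ W l := by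
    intro P hP
    induction hP using Submodule.span_induction with
    | mem x hx =>
      intro l
      have e := hr' (s'.equivFin ⟨x, hx⟩)
      rw [Equiv.symm_apply_apply] at e
      simp only [] at e
      rw [← e, Polynomial.coeff_monomial]
      split_ifs with hl
      · exact Submodule.subset_span ⟨_, 0, by simpa using hl, by simp⟩
      · exact zero_mem _
    | zero => simp
    | add x y _ _ hx hy => intro l; rw [Polynomial.coeff_add]; exact add_mem (hx l) (hy l)
    | smul a x _ hx => exact hB a.1 a.2 x hx
  have hG' : Polynomial.monomial l s ∈ G := ⟨l, s, hs, rfl⟩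
  have := key _ (hsp ▸ Submodule.subset_span hG') l
  rwa [Polynomial.coeff_monomial_same] at this

/-- The finiteness criterion.
Recipe: `F := FractionRing K[X]` (or `RatFunc K`), `ι : K[X] →ₐ[ℂ] F`, `B₀ := adjoin ℂ {monomial k (t i)}`, `B := B₀.map ι`.
(1) For `s ∈ R (l * k)`, `ι (monomial (l * k) s)` is integral over `B` by `isIntegral_of_val`: for `V ⊇ B` let
`V₀ := V.comap (K →+* F)`; with `i` from `hval V₀`, `s X^(l k) = (s / t i ^ l) * (t i X^k)^l ∈ V`.
(2) For `s ∈ R l`: `(s X^l)^k = s^k X^(l k)` with `s^k ∈ R (l * k)`, so `s X^l` is integral (`IsIntegral.of_pow`).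
(3) `F` is algebraic over `B`: elements of `K` are ratios `(a X^l)/(b X^l)` of integral elements (`hfrac`), `X^k = (t i X^k)/t i` for
some `t i ≠ 0` (`hval ⊤`), `F` is generated as a field by `K` and `X`; (use the subfield/`IntermediateField`/subalgebra of elements
algebraic over `B`: `Subalgebra.algebraicClosure` or `IsAlgebraic.mul/add/inv`).  `F` is generated over `ℂ` by `S` and `X`.
(4) `finite_integralClosure`; `B₀ ≃ B`; `N := ` the `B₀`-submodule of `P : K[X]` with `ι P` integral over `B`; it embeds in the
Noetherian module `integralClosure B F`; `finOver_of_fg`. -/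
theorem finOver_of_val {K : Type} [Field K] [Algebra ℂ K] (R : ℕ → Submodule ℂ K)
    (h1 : (1 : K) ∈ R 0) (hmul : ∀ i j, ∀ a ∈ R i, ∀ b ∈ R j, a * b ∈ R (i + j))
    (k : ℕ) (hk : 0 < k) {m : ℕ} (t : Fin m → K)
    (S : Finset K) (hS : IntermediateField.adjoin ℂ (S : Set K) = ⊤)
    (hfrac : ∀ f : K, ∃ l, ∃ a ∈ R l, ∃ b ∈ R l, b ≠ 0 ∧ f = a / b)
    (hval : ∀ V : ValuationSubring K, (∀ a : ℂ, algebraMap ℂ K a ∈ V) →
      ∃ i, t i ≠ 0 ∧ ∀ l, ∀ s ∈ R (l * k), s / t i ^ l ∈ V) :
    FinOver R k t := by
  classical
  set F := FractionRing (Polynomial K)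
  set B₀ := Algebra.adjoin ℂ (range fun i => Polynomial.monomial k (t i)) with hB₀
  obtain ⟨hfg, hnoe⟩ := fin_noeth fun i => Polynomial.monomial k (t i)
  set ι : Polynomial K →ₐ[ℂ] F := IsScalarTower.toAlgHom ℂ (Polynomial K) F with hι
  have hιi : Function.Injective ι := IsFractionRing.injective (Polynomial K) F
  set B := B₀.map ι with hB
  set j : K →+* F := (ι : Polynomial K →+* F).comp Polynomial.C with hj
  have hjc : ∀ a : ℂ, j (algebraMap ℂ K a) = algebraMap ℂ F a := fun a => ι.commutes a
  have hmem : ∀ i, ι (Polynomial.monomial k (t i)) ∈ B := fun i =>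
    ⟨_, Algebra.subset_adjoin ⟨i, rfl⟩, rfl⟩
  have hmon : ∀ l s, ι (Polynomial.monomial l s) = j s * ι Polynomial.X ^ l := fun l s => by
    rw [← Polynomial.C_mul_X_pow_eq_monomial, map_mul, map_pow]
    rfl
  have int1 : ∀ l, ∀ s ∈ R (l * k), IsIntegral B (ι (Polynomial.monomial (l * k) s)) := by
    intro l s hs
    refine isIntegral_of_val B _ fun V hV => ?_
    obtain ⟨i, hi, h⟩ := hval (V.comap j) fun a => by
      rw [ValuationSubring.mem_comap, hjc]
      exact hV _ (B.algebraMap_mem a)
    have e : ι (Polynomial.monomial (l * k) s) = j (s / t i ^ l) * ι (Polynomial.monomial k (t i)) ^ l := by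
      have : j (t i) ≠ 0 := (map_ne_zero j).2 hi
      rw [hmon, hmon, map_div₀, map_pow, mul_pow, ← pow_mul, mul_comm k l, ← mul_assoc,
        div_mul_cancel₀ _ (pow_ne_zero _ this)]
    rw [e]
    exact mul_mem (h l s hs) (pow_mem (hV _ (hmem i)) l)
  have hpow : ∀ l, ∀ s ∈ R l, ∀ n, s ^ n ∈ R (l * n) := by
    intro l s hs n
    induction n with
    | zero => simpa using h1
    | succ n ih => rw [pow_succ, mul_add, mul_one]; exact hmul _ _ _ ih _ hs
  have int2 : ∀ l, ∀ s ∈ R l, IsIntegral B (ι (Polynomial.monomial l s)) := by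
    intro l s hs
    refine IsIntegral.of_pow hk ?_
    rw [← map_pow, Polynomial.monomial_pow]
    exact int1 l _ (hpow l s hs k)
  have algK : ∀ f : K, IsAlgebraic B (j f) := by
    intro f
    obtain ⟨l, a, ha, b, hb, hb0, rfl⟩ := hfrac f
    refine IsAlgebraic.of_mul (y := ι (Polynomial.monomial l b)) (mem_nonZeroDivisors_of_ne_zero ?_)
      (int2 l b hb).isAlgebraic ?_
    · rw [map_ne_zero_iff ι hιi]
      simpa using hb0
    · have : j b ≠ 0 := (map_ne_zero j).2 hb0
      have e : ι (Polynomial.monomial l b) * j (a / b) = ι (Polynomial.monomial l a) := by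
        rw [hmon, hmon, map_div₀, mul_right_comm, mul_div_cancel₀ _ this]
      rw [e]
      exact (int2 l a ha).isAlgebraic
  have algX : IsAlgebraic B (ι Polynomial.X) := by
    obtain ⟨i, hi, -⟩ := hval ⊤ fun a => trivial
    refine IsAlgebraic.of_pow hk (IsAlgebraic.of_mul (y := j (t i))
      (mem_nonZeroDivisors_of_ne_zero ((map_ne_zero j).2 hi)) (algK _) ?_)
    rw [← hmon]
    exact isAlgebraic_algebraMap (⟨_, hmem i⟩ : B)
  have algP : ∀ P : Polynomial K, IsAlgebraic B (ι P) := by
    intro P
    induction P using Polynomial.induction_on' with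
    | add p q hp hq => rw [map_add]; exact hp.add hq
    | monomial n a => rw [hmon]; exact (algK a).mul (algX.pow n)
  have halg : Algebra.IsAlgebraic B F := ⟨fun x => by
    obtain ⟨p, q, -, rfl⟩ := IsFractionRing.div_surjective (A := Polynomial K) x
    rw [div_eq_mul_inv]
    exact (algP p).mul (IsAlgebraic.inv_iff.2 (algP q))⟩
  have hgen : IntermediateField.adjoin ℂ ((insert (ι Polynomial.X) (S.image j) : Finset F) : Set F) = ⊤ := by
    set E := IntermediateField.adjoin ℂ ((insert (ι Polynomial.X) (S.image j) : Finset F) : Set F)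
    have e1 : ∀ f : K, j f ∈ E := by
      intro f
      have hx : f ∈ IntermediateField.adjoin ℂ (S : Set K) := hS ▸ IntermediateField.mem_top
      induction hx using IntermediateField.adjoin_induction with
      | mem x hx =>
        exact IntermediateField.subset_adjoin _ _ (by simp only [Finset.coe_insert, Finset.coe_image]; exact Or.inr ⟨x, hx, rfl⟩)
      | algebraMap a => rw [hjc]; exact IntermediateField.algebraMap_mem _ _
      | add x y _ _ hx hy => rw [map_add]; exact add_mem hx hy
      | inv x _ hx => rw [map_inv₀]; exact inv_mem hx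
      | mul x y _ _ hx hy => rw [map_mul]; exact mul_mem hx hy
    have e2 : ι Polynomial.X ∈ E := IntermediateField.subset_adjoin _ _ (by simp)
    have e3 : ∀ P : Polynomial K, ι P ∈ E := by
      intro P
      induction P using Polynomial.induction_on' with
      | add p q hp hq => rw [map_add]; exact add_mem hp hq
      | monomial n a => rw [hmon]; exact mul_mem (e1 a) (pow_mem e2 n)
    rw [eq_top_iff]
    intro x _
    obtain ⟨p, q, -, rfl⟩ := IsFractionRing.div_surjective (A := Polynomial K) x
    exact div_mem (e3 p) (e3 q)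
  have hfin := finite_integralClosure B (hfg.map ι) _ hgen halg
  letI : Algebra B₀ B := (ι.subalgebraMap B₀).toRingHom.toAlgebra
  haveI : IsScalarTower B₀ B F := IsScalarTower.of_algebraMap_eq fun _ => rfl
  have hI : ((Subalgebra.toSubmodule (integralClosure B F)).restrictScalars B₀).FG :=
    Submodule.FG.restrictScalars_of_surjective
      ((Module.Finite.iff_fg (N := Subalgebra.toSubmodule (integralClosure B F))).1 hfin)
      (ι.subalgebraMap_surjective B₀)
  set f : Polynomial K →ₗ[B₀] F := (IsScalarTower.toAlgHom B₀ (Polynomial K) F).toLinearMap with hf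
  refine finOver_of_fg R k t (((Subalgebra.toSubmodule (integralClosure B F)).restrictScalars B₀).comap f)
    (Submodule.fg_of_fg_map_injective f hιi (hI.of_le (Submodule.map_comap_le _ _))) fun l s hs => int2 l s hs

end Crest.Agent.R271.S2
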