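import Mathlib

/-! # Row 271, block S2: a finite algebra unramified at a point is monogenic near the point -/

set_option autoImplicit false

open Set

namespace Crest.Agent.R271.S2

/-- `C` is finite over `B = ℂ[z]` and unramified at the point `x` over the origin.
Recipe: `𝔫 = ker x`, `𝔭 = Ideal.span (range zC)`.  `C` is a Noetherian ring (finite over f.g.; or `C = adjoin (range z ∪ s)`), so `𝔫` is f.g. and
`hunr` gives one `b` with `x b = 1` (rescale), `b 𝔫 ≤ 𝔭`.  `U := b`, `D := adjoin ℂ (insert U (range z)) ≤ C`.  For `f ∈ C`,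
`f = (1 - U) f + U (f - x f) + x f • U ∈ D + 𝔮 C` where `𝔮 = ker (x|D) ∋ 1 - U, z i`.  Nakayama for the finite `D`-module `C`
(`Submodule.exists_sub_one_mem_and_smul_le_of_fg_of_le_sup`) gives `g₀ ∈ D`, `g₀ - 1 ∈ 𝔮`, `g₀ C ⊆ D`.
Simple root: `g₀ U (U - 1) = ∑ z i * (g₀ e i)` with `g₀ e i ∈ D`.  Every element of `D` is `aeval U H` with `H : B[X]`
(`Algebra.adjoin_insert_adjoin`/`adjoin_singleton_eq_range_aeval`).  With `g₀ U = H(U)`, `g₀ e i = G i (U)`:
`H (X - 1) - ∑ C (z i) G i` vanishes at `U`, so it is `Q * S`, `Q = minpoly B U` (`minpoly.isIntegrallyClosed_dvd`; `B ≃ MvPolynomial` by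
`hz.aevalEquiv` is integrally closed, `U` is integral over `B` as `C` is finite).  Differentiate, evaluate at `U`, apply `x`:
`1 = x (Q'(U)) * x (S(U))` (all the values `aeval U _` lie in `D ≤ C`; `Q(U) = 0`). -/
theorem exists_primitive {K : Type} [Field K] [Algebra ℂ K] {n : ℕ} (z : Fin n → K)
    (hz : AlgebraicIndependent ℂ z) (C : Subalgebra ℂ K) (hzC : ∀ i, z i ∈ C)
    (s : Finset K) (hsC : ∀ r ∈ s, r ∈ C)
    (hs : ∀ f ∈ C, f ∈ Submodule.span (Algebra.adjoin ℂ (range z)) (s : Set K))
    (x : C →ₐ[ℂ] ℂ) (hx : ∀ i, x ⟨z i, hzC i⟩ = 0)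
    (hunr : ∀ a : C, x a = 0 → ∃ b : C, x b ≠ 0 ∧
      b * a ∈ Ideal.span (range fun i => (⟨z i, hzC i⟩ : C))) :
    ∃ U g₀ q : C, (g₀ : K) ∈ Algebra.adjoin ℂ (insert (U : K) (range z)) ∧ x g₀ ≠ 0 ∧
      (∀ f ∈ C, (g₀ : K) * f ∈ Algebra.adjoin ℂ (insert (U : K) (range z))) ∧ x q ≠ 0 ∧
      (q : K) ∈ Algebra.adjoin ℂ (insert (U : K) (range z)) ∧
      (q : K) = Polynomial.aeval (U : K)
        (Polynomial.derivative (minpoly (Algebra.adjoin ℂ (range z)) (U : K))) := by
  classical
  have hBC : Algebra.adjoin ℂ (range z) ≤ C := Algebra.adjoin_le (by rintro _ ⟨i, rfl⟩; exact hzC i)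
  have hle : ∀ f ∈ Submodule.span (Algebra.adjoin ℂ (range z)) (s : Set K), f ∈ C := by
    intro f hf
    induction hf using Submodule.span_induction with
    | mem g hg => exact hsC g hg
    | zero => exact zero_mem _
    | add a b _ _ ha hb => exact add_mem ha hb
    | smul a b _ hb => exact mul_mem (hBC a.2) hb
  have hint : ∀ f ∈ C, IsIntegral (Algebra.adjoin ℂ (range z)) f := fun f hf =>
    isIntegral_of_smul_mem_submodule (Submodule.span (Algebra.adjoin ℂ (range z)) (s : Set K))
      (fun h => by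
        have := hs 1 (one_mem _)
        rw [h] at this
        exact one_ne_zero ((Submodule.mem_bot _).1 this))
      ⟨s, rfl⟩ f fun g hg => hs _ (mul_mem hf (hle g hg))
  -- `C` is Noetherian
  have hfg : C.FG := by
    refine ⟨Finset.univ.image z ∪ s, le_antisymm (Algebra.adjoin_le ?_) fun f hf => ?_⟩
    · intro f hf
      rcases Finset.mem_union.1 hf with h | h
      · obtain ⟨i, _, rfl⟩ := Finset.mem_image.1 h
        exact hzC i
      · exact hsC f h
    · have h := hs f hf
      clear hf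
      induction h using Submodule.span_induction with
      | mem g hg => exact Algebra.subset_adjoin (Finset.mem_union_right _ hg)
      | zero => exact zero_mem _
      | add a b _ _ ha hb => exact add_mem ha hb
      | smul a b _ hb =>
        refine mul_mem (Algebra.adjoin_mono ?_ a.2) hb
        rintro _ ⟨i, rfl⟩
        exact Finset.mem_union_left _ (Finset.mem_image_of_mem _ (Finset.mem_univ i))
  have : Algebra.FiniteType ℂ C := (Subalgebra.fg_iff_finiteType C).1 hfg
  have : IsNoetherianRing C := Algebra.FiniteType.isNoetherianRing ℂ C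
  -- one element `U` with `U 𝔫 ⊆ 𝔭 C`
  obtain ⟨U, hU1, hU⟩ : ∃ U : C, x U = 1 ∧ ∀ a, x a = 0 →
      U * a ∈ Ideal.span (range fun i => (⟨z i, hzC i⟩ : C)) := by
    obtain ⟨G, hG⟩ := (IsNoetherian.noetherian (RingHom.ker x) : (RingHom.ker x).FG)
    have hGx : ∀ a : G, x a = 0 := fun a => by
      have : (a : C) ∈ RingHom.ker x := hG ▸ Ideal.subset_span a.2
      exact this
    choose b hb hba using fun a : G => hunr a (hGx a)
    have hP : x (∏ a, b a) ≠ 0 := by
      rw [map_prod]
      exact Finset.prod_ne_zero_iff.2 fun a _ => hb a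
    refine ⟨(x (∏ a, b a))⁻¹ • ∏ a, b a, by rw [map_smul, smul_eq_mul, inv_mul_cancel₀ hP],
      fun a ha => ?_⟩
    rw [Algebra.smul_def, mul_assoc]
    refine Ideal.mul_mem_left _ _ ?_
    have ha' : a ∈ Ideal.span (G : Set C) := by
      have : a ∈ RingHom.ker x := ha
      rwa [← hG] at this
    clear ha
    induction ha' using Submodule.span_induction with
    | mem g hg =>
      rw [← Finset.prod_erase_mul _ _ (Finset.mem_univ (⟨g, hg⟩ : G)), mul_assoc]
      exact Ideal.mul_mem_left _ _ (hba ⟨g, hg⟩)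
    | zero => simp
    | add a b _ _ ha hb => rw [mul_add]; exact add_mem ha hb
    | smul a b _ hb =>
      rw [smul_eq_mul, mul_left_comm]
      exact Ideal.mul_mem_left _ _ hb
  have hU' : ∀ a : C, x a = 0 → ∃ e : Fin n → K, (∀ i, e i ∈ C) ∧
      (U : K) * a = ∑ i, e i * z i := fun a ha => by
    obtain ⟨e, he⟩ := Ideal.mem_span_range_iff_exists_fun.1 (hU a ha)
    refine ⟨fun i => e i, fun i => (e i).2, ?_⟩
    have := congrArg (fun a : C => (a : K)) he
    push_cast at this
    exact this.symm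
  -- Nakayama over `D = ℂ[z, U]`
  set D := Algebra.adjoin ℂ (insert (U : K) (range z)) with hD
  have hDC : D ≤ C := by
    refine Algebra.adjoin_le ?_
    rintro _ (rfl | ⟨i, rfl⟩)
    exacts [U.2, hzC i]
  have hUD : (U : K) ∈ D := Algebra.subset_adjoin (mem_insert _ _)
  have hzD : ∀ i, z i ∈ D := fun i => Algebra.subset_adjoin (mem_insert_of_mem _ ⟨i, rfl⟩)
  have hBD : Algebra.adjoin ℂ (range z) ≤ D := Algebra.adjoin_mono (subset_insert _ _)
  obtain ⟨g₀, hg₀1, hg₀⟩ : ∃ g₀ : D, x (Subalgebra.inclusion hDC g₀) = 1 ∧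
      ∀ f ∈ C, (g₀ : K) * f ∈ D := by
    let xD : D →ₐ[ℂ] ℂ := x.comp (Subalgebra.inclusion hDC)
    have hCs : ∀ f ∈ C, f ∈ Submodule.span D (s : Set K) := by
      intro f hf
      have h := hs f hf
      clear hf
      induction h using Submodule.span_induction with
      | mem g hg => exact Submodule.subset_span hg
      | zero => exact zero_mem _
      | add a b _ _ ha hb => exact add_mem ha hb
      | smul a b _ hb => exact Submodule.smul_mem _ (⟨a, hBD a.2⟩ : D) hb
    have hsC' : ∀ f ∈ Submodule.span D (s : Set K), f ∈ C := by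
      intro f hf
      induction hf using Submodule.span_induction with
      | mem g hg => exact hsC g hg
      | zero => exact zero_mem _
      | add a b _ _ ha hb => exact add_mem ha hb
      | smul a b _ hb => exact mul_mem (hDC a.2) hb
    have hsup : Submodule.span D (s : Set K) ≤
        Submodule.span D {(1 : K)} ⊔ RingHom.ker xD • Submodule.span D (s : Set K) := by
      intro f hf
      have hfC := hsC' f hf
      obtain ⟨e, he, hfe⟩ := hU' (⟨f, hfC⟩ - x ⟨f, hfC⟩ • 1) (by simp)
      push_cast at hfe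
      have e1 : f = (x ⟨f, hfC⟩ • (⟨U, hUD⟩ : D)) • (1 : K) +
          ((1 - ⟨U, hUD⟩ : D) • f + ∑ i, (⟨z i, hzD i⟩ : D) • e i) := by
        simp only [Subalgebra.smul_def, smul_eq_mul]
        push_cast
        rw [Finset.sum_congr rfl fun i _ => mul_comm (z i) (e i), ← hfe]
        simp only [Algebra.smul_def]
        ring
      rw [e1]
      refine add_mem (Submodule.mem_sup_left (Submodule.smul_mem _ _ (Submodule.subset_span rfl)))
        (Submodule.mem_sup_right (add_mem (Submodule.smul_mem_smul ?_ hf)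
          (Submodule.sum_mem _ fun i _ => Submodule.smul_mem_smul ?_ (hCs _ (he i)))))
      · rw [RingHom.mem_ker, map_sub, map_one, sub_eq_zero]
        exact hU1.symm
      · exact hx i
    obtain ⟨r, hr1, hr⟩ := Submodule.exists_sub_one_mem_and_smul_le_of_fg_of_le_sup
      (I := RingHom.ker xD) ⟨s, rfl⟩ le_rfl hsup
    refine ⟨r, ?_, fun f hf => ?_⟩
    · rw [RingHom.mem_ker, map_sub, map_one, sub_eq_zero] at hr1
      exact hr1
    · obtain ⟨a, ha⟩ := Submodule.mem_span_singleton.1
        (hr (Submodule.smul_mem_pointwise_smul f r _ (hCs f hf)))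
      simp only [Subalgebra.smul_def, smul_eq_mul, mul_one] at ha
      rw [← ha]
      exact a.2
  -- polynomials in `U`
  let φ : Polynomial (Algebra.adjoin ℂ (range z)) →+* C :=
    Polynomial.eval₂RingHom (Subalgebra.inclusion hBC).toRingHom U
  have hφ : ∀ P, (φ P : K) = Polynomial.aeval (U : K) P := by
    intro P
    induction P using Polynomial.induction_on' with
    | add p q hp hq => rw [map_add, map_add, ← hp, ← hq]; rfl
    | monomial m a =>
      simp only [φ, Polynomial.coe_eval₂RingHom, Polynomial.eval₂_monomial, Polynomial.aeval_monomial]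
      rfl
  have hφD : ∀ P : Polynomial (Algebra.adjoin ℂ (range z)), Polynomial.aeval (U : K) P ∈ D := by
    intro P
    induction P using Polynomial.induction_on' with
    | add p q hp hq => rw [map_add]; exact add_mem hp hq
    | monomial m a =>
      rw [Polynomial.aeval_monomial]
      exact mul_mem (hBD a.2) (pow_mem hUD m)
  have hDφ : ∀ f ∈ D, ∃ P : Polynomial (Algebra.adjoin ℂ (range z)),
      Polynomial.aeval (U : K) P = f := by
    intro f hf
    induction hf using Algebra.adjoin_induction with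
    | mem g hg =>
      rcases hg with rfl | ⟨i, rfl⟩
      · exact ⟨Polynomial.X, by simp⟩
      · exact ⟨Polynomial.C ⟨z i, Algebra.subset_adjoin ⟨i, rfl⟩⟩, by simp⟩
    | algebraMap c => exact ⟨Polynomial.C (algebraMap ℂ _ c), by simp⟩
    | add a b _ _ ha hb =>
      obtain ⟨P, rfl⟩ := ha
      obtain ⟨Q, rfl⟩ := hb
      exact ⟨P + Q, map_add _ _ _⟩
    | mul a b _ _ ha hb =>
      obtain ⟨P, rfl⟩ := ha
      obtain ⟨Q, rfl⟩ := hb
      exact ⟨P * Q, map_mul _ _ _⟩
  refine ⟨U, Subalgebra.inclusion hDC g₀, φ (Polynomial.derivative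
    (minpoly (Algebra.adjoin ℂ (range z)) (U : K))), g₀.2, by rw [hg₀1]; exact one_ne_zero, hg₀, ?_,
    by rw [hφ]; exact hφD _, hφ _⟩
  obtain ⟨e, he, hUe⟩ := hU' (U - 1) (by simp [hU1])
  obtain ⟨H, hH⟩ := hDφ _ (mul_mem g₀.2 hUD)
  choose G hG using fun i => hDφ _ (hg₀ _ (he i))
  have : IsIntegrallyClosed (Algebra.adjoin ℂ (range z)) :=
    IsIntegrallyClosed.of_equiv hz.aevalEquiv.toRingEquiv
  obtain ⟨S, hS⟩ := minpoly.isIntegrallyClosed_dvd (hint U U.2)
    (p := H * (Polynomial.X - 1) -
      ∑ i, Polynomial.C ⟨z i, Algebra.subset_adjoin ⟨i, rfl⟩⟩ * G i) (by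
      simp only [map_sub, map_mul, map_sum, hH, hG, Polynomial.aeval_X, map_one, Polynomial.aeval_C]
      push_cast at hUe
      rw [mul_assoc, hUe, Finset.mul_sum, sub_eq_zero]
      refine Finset.sum_congr rfl fun i _ => ?_
      change _ = z i * _
      ring)
  have h1 := congrArg (fun P => x (φ (Polynomial.derivative P))) hS
  have hX : φ Polynomial.X = U := Subtype.ext (by rw [hφ]; simp)
  have hCz : ∀ i, φ (Polynomial.C ⟨z i, Algebra.subset_adjoin ⟨i, rfl⟩⟩) = ⟨z i, hzC i⟩ :=
    fun i => Subtype.ext (by rw [hφ]; simp)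
  have hQ : φ (minpoly (Algebra.adjoin ℂ (range z)) (U : K)) = 0 :=
    Subtype.ext (by rw [hφ]; simp)
  have hH' : φ H = Subalgebra.inclusion hDC g₀ * U := Subtype.ext (by rw [hφ, hH]; rfl)
  simp only [Polynomial.derivative_mul,
    Polynomial.derivative_C, Polynomial.derivative_X, Polynomial.derivative_one, map_sub, map_add,
    map_mul, map_sum, map_one, hX, hCz, hQ, hH', hx, hU1, hg₀1, zero_mul, mul_one,
    sub_self, mul_zero, zero_add, add_zero, sub_zero, Finset.sum_const_zero] at h1
  intro h0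
  rw [h0, zero_mul] at h1
  exact one_ne_zero h1

end Crest.Agent.R271.S2
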