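import Crest.Agent.R271.S2.Chart
import Crest.Agent.R271.S2.Fin
import Crest.Agent.R271.S2.Local

/-! # Row 271, block S2.  Section ring. See `Crest/Agent/R271/Blueprint.lean`, section S2. -/

set_option autoImplicit false

open Set

namespace Crest.Agent.R271

namespace S2

variable {n : ℕ} {K : Type} [Field K] [Algebra ℂ K] (v : VM n K)

/-- the chart `{t 0 ≠ 0}` is unramified over `ℂ[z]` at `x` -/
theorem unram {j : ℕ} (hj : 0 < j) {t : Fin (n + 1) → K} (ht : ∀ i, t i ∈ sec v (j * v.k₀))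
    (ht0 : ev v.x (t 0 / v.u 0 ^ j) ≠ 0) {b : K} (hbC : b ∈ v.C 0) (hb0 : ev v.x b ≠ 0)
    (hb : ∀ a ∈ v.C 0, ev v.x a = 0 →
      ∃ e : Fin n → K, (∀ i, e i ∈ v.C 0) ∧ b * a = ∑ i, e i * (t i.succ / v.u 0 ^ j))
    {a : K} (ha : a ∈ away v (ht 0)) (hxa : ev v.x a = 0) :
    ∃ b' ∈ away v (ht 0), ev v.x b' ≠ 0 ∧ ∃ e : Fin n → K, (∀ i, e i ∈ away v (ht 0)) ∧
      b' * a = ∑ i, e i * (t i.succ / t 0) := by
  have h0 : t 0 ≠ 0 := fun h => ne_zero_of_ev v.x ht0 (by rw [h, zero_div])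
  have hu := v.u_ne 0
  have hρC := div_mem_C v 0 (ht 0)
  have hρ := le_locR v.x hρC
  obtain ⟨a₁, b₁, hb₁, h₁⟩ := away_le v (ht 0) ht0 ha
  have hxa₁ : ev v.x a₁ = 0 := by
    rw [ev_spec v.x hb₁ h₁] at hxa
    rw [ev_coe]
    exact (div_eq_zero_iff.1 hxa).resolve_right hb₁
  obtain ⟨e, heC, he⟩ := hb a₁ a₁.2 hxa₁
  obtain ⟨m₀, hm₀⟩ := exists_mul_mem_away v hj (ht 0) h0 (mul_mem hbC b₁.2)
  choose m hm using fun i => exists_mul_mem_away v hj (ht 0) h0 (mul_mem (heC i) hρC)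
  refine ⟨_, hm₀ (m₀ + Finset.univ.sup m) (Nat.le_add_right _ _), ?_, _, fun i => hm i
    (m₀ + Finset.univ.sup m) ((Finset.le_sup (f := m) (Finset.mem_univ i)).trans
      (Nat.le_add_left _ _)), ?_⟩
  · have hi := inv_mem_locR v.x hρ ht0
    rw [ev_mul v.x (le_locR v.x (mul_mem hbC b₁.2)) (pow_mem hi _), ev_pow v.x hi,
      ev_inv v.x hρ ht0, ev_mul v.x (le_locR v.x hbC) (le_locR v.x b₁.2), ev_coe]
    exact mul_ne_zero (mul_ne_zero hb0 hb₁) (pow_ne_zero _ (inv_ne_zero ht0))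
  · rw [mul_right_comm, mul_assoc b, h₁, he, Finset.sum_mul]
    refine Finset.sum_congr rfl fun i _ => ?_
    field_simp

end S2

open S2 in
theorem stS2 : StS2 := by
  intro n K _ _ v _
  obtain ⟨j, t, hj, ht, hNB, ht0, hts, b, hbC, hb0, hb⟩ := exists_t v
  obtain ⟨d, N', t', ht', hNB', ht'0⟩ := exists_t' v j hj
  obtain ⟨S, hS⟩ := fg_field v
  have hk : 0 < j * v.k₀ := Nat.mul_pos hj v.k₀_pos
  have hk' : 0 < 1 + d * (j * v.k₀) := by omega
  have fin := finOver_of_val (sec v) (one_mem_sec v) (mul_mem_sec v) _ hk t S hS (frac_sec v) hNB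
  have fin' := finOver_of_val (sec v) (one_mem_sec v) (mul_mem_sec v) _ hk' t' S hS (frac_sec v) hNB'
  have h0 : t 0 ≠ 0 := fun h => ne_zero_of_ev v.x ht0 (by rw [h, zero_div])
  have h0' : t' 0 ≠ 0 := fun h => ne_zero_of_ev v.x ht'0 (by
    rw [h, zero_pow v.k₀_pos.ne', zero_div])
  have hu := v.u_ne 0
  have hρC := div_mem_C v 0 (ht 0)
  have hρ := le_locR v.x hρC
  have hCO := away_le v (ht 0) ht0
  obtain ⟨s, hsC, hs⟩ := away_fin v hk ht h0 fin
  have hzC : ∀ i : Fin n, t i.succ / t 0 ∈ away v (ht 0) := fun i => by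
    simpa using div_mem_away v (ht 0) h0 (j := 1) (by simpa using ht i.succ)
  have hfracC : ∀ f : K, ∃ a ∈ away v (ht 0), ∃ b ∈ away v (ht 0), f = a / b := by
    intro f
    obtain ⟨a, ha, b, hb, rfl⟩ := v.frac 0 f
    obtain ⟨m, hm⟩ := exists_mul_mem_away v hj (ht 0) h0 ha
    obtain ⟨m', hm'⟩ := exists_mul_mem_away v hj (ht 0) h0 hb
    exact ⟨_, hm _ (le_max_left m m'), _, hm' _ (le_max_right m m'), (mul_div_mul_right _ _
      (pow_ne_zero _ (inv_ne_zero (ne_zero_of_ev v.x ht0)))).symm⟩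
  have hind := indep_of_fin v.trdeg _ _ hzC s hsC hs hfracC
  obtain ⟨U, g₀, q, hg₀D, hg₀, hg₀C, hq, hqD, hqe⟩ := exists_primitive _ hind _ hzC s hsC hs
    (evHom v.x _ hCO) (fun i => by
      have e : t i.succ / t 0 = t i.succ / v.u 0 ^ j * (t 0 / v.u 0 ^ j)⁻¹ := by field_simp
      rw [evHom_apply]
      simp only
      rw [e, ev_mul v.x (le_locR v.x (div_mem_C v 0 (ht _))) (inv_mem_locR v.x hρ ht0), hts,
        zero_mul])
    (fun a ha => by
      obtain ⟨b', hb', hb'0, e, he, h⟩ := unram v hj ht ht0 hbC hb0 hb a.2 ha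
      refine ⟨⟨b', hb'⟩, hb'0, Ideal.mem_span_range_iff_exists_fun.2 ⟨fun i => ⟨e i, he i⟩, ?_⟩⟩
      apply Subtype.ext
      push_cast
      exact h.symm)
  rw [evHom_apply] at hg₀ hq
  -- the function `σ = t' 0 ^ k / t 0 ^ k'`
  obtain ⟨σ, hσ⟩ : ∃ σ, σ = t' 0 ^ (j * v.k₀) / t 0 ^ (1 + d * (j * v.k₀)) := ⟨_, rfl⟩
  have hσC : σ ∈ away v (ht 0) := by
    rw [hσ]
    refine div_mem_away v (ht 0) h0 ?_
    rw [mul_comm (1 + d * (j * v.k₀))]
    exact pow_mem_sec v (ht' 0) _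
  have hσ0 : ev v.x σ ≠ 0 := by
    have e : σ = (t' 0 ^ v.k₀ / v.u 0 ^ (1 + d * (j * v.k₀))) ^ j *
        (t 0 / v.u 0 ^ j)⁻¹ ^ (1 + d * (j * v.k₀)) := by
      rw [hσ, inv_div, div_pow, div_pow, ← pow_mul, ← pow_mul, ← pow_mul, mul_comm v.k₀ j,
        mul_comm (1 + d * (j * v.k₀)) j]
      field_simp
    have h1 : t' 0 ^ v.k₀ / v.u 0 ^ (1 + d * (j * v.k₀)) ∈ locR v.x := by
      refine le_locR v.x (div_mem_C v 0 ?_)
      rw [mul_comm (1 + d * (j * v.k₀))]
      exact pow_mem_sec v (ht' 0) _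
    have hi := inv_mem_locR v.x hρ ht0
    rw [e, ev_mul v.x (pow_mem h1 _) (pow_mem hi _), ev_pow v.x h1, ev_pow v.x hi,
      ev_inv v.x hρ ht0]
    exact mul_ne_zero (pow_ne_zero _ ht'0) (pow_ne_zero _ (inv_ne_zero ht0))
  obtain ⟨g, hg⟩ : ∃ g : K, g = g₀ * (g₀ * σ) * q := ⟨_, rfl⟩
  have hgD : g ∈ Algebra.adjoin ℂ (insert (U : K) (range fun i : Fin n => t i.succ / t 0)) := by
    rw [hg]
    exact mul_mem (mul_mem hg₀D (hg₀C _ hσC)) hqD
  have hDC : Algebra.adjoin ℂ (insert (U : K) (range fun i : Fin n => t i.succ / t 0)) ≤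
      away v (ht 0) := by
    refine Algebra.adjoin_le ?_
    rintro _ (rfl | ⟨i, rfl⟩)
    exacts [U.2, hzC i]
  have hgx : ev v.x g ≠ 0 := by
    rw [hg, ev_mul v.x (hCO (mul_mem g₀.2 (mul_mem g₀.2 hσC))) (hCO q.2),
      ev_mul v.x (hCO g₀.2) (hCO (mul_mem g₀.2 hσC)), ev_mul v.x (hCO g₀.2) (hCO hσC)]
    exact mul_ne_zero (mul_ne_zero hg₀ (mul_ne_zero hg₀ hσ0)) hq
  have hg0 := ne_zero_of_ev v.x hgx
  have hg₀0 := ne_zero_of_ev v.x hg₀
  have hq0 := ne_zero_of_ev v.x hq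
  have hσne := ne_zero_of_ev v.x hσ0
  obtain ⟨c₀, hc₀⟩ := mem_away_ge v (ht 0) (hDC hgD)
  obtain ⟨w, hw⟩ : ∃ w, (c₀ + 1) * (1 + d * (j * v.k₀)) = w + 1 ∧ c₀ ≤ w :=
    ⟨c₀ + (c₀ + 1) * (d * (j * v.k₀)), by ring, Nat.le_add_right _ _⟩
  have hκ : (c₀ + 1) * (j * v.k₀) * (1 + d * (j * v.k₀)) = (w + 1) * (j * v.k₀) := by
    rw [← hw.1]; ring
  have hτ : g * t 0 ^ (w + 1) ∈ sec v ((c₀ + 1) * (j * v.k₀) * (1 + d * (j * v.k₀))) := by
    rw [hκ]
    exact hc₀ _ (by omega)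
  have hDA : Algebra.adjoin ℂ (insert (U : K) (range fun i : Fin n => t i.succ / t 0)) ≤
      Algebra.adjoin ℂ (insert g⁻¹ (insert (U : K) (range fun i : Fin n => t i.succ / t 0))) :=
    Algebra.adjoin_mono (subset_insert _ _)
  have hgi : g⁻¹ ∈
      Algebra.adjoin ℂ (insert g⁻¹ (insert (U : K) (range fun i : Fin n => t i.succ / t 0))) :=
    Algebra.subset_adjoin (mem_insert _ _)
  have hCA' : away v (ht 0) ≤
      Algebra.adjoin ℂ (insert g⁻¹ (insert (U : K) (range fun i : Fin n => t i.succ / t 0))) := by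
    intro f hf
    have := mul_mem (mul_mem (hDA (hg₀C f hf)) (hDA (mul_mem (hg₀C _ hσC) hqD))) hgi
    convert this using 1
    rw [hg]
    field_simp
  have hCA : away v (ht 0) ≤ away v hτ := by
    rintro f ⟨m, hm⟩
    refine ⟨m, ?_⟩
    have h1 := mul_mem_sec v _ _ _ hm _ (pow_mem_sec v (hc₀ w hw.2) m)
    rw [hκ, show m * ((w + 1) * (j * v.k₀)) = m * (j * v.k₀) + m * (w * (j * v.k₀)) by ring]
    convert h1 using 1
    ring
  have hA : away v hτ =
      Algebra.adjoin ℂ (insert g⁻¹ (insert (U : K) (range fun i : Fin n => t i.succ / t 0))) := by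
    refine le_antisymm ?_ (Algebra.adjoin_le ?_)
    · rintro f ⟨m, hm⟩
      have h1 : f * g ^ m ∈ away v (ht 0) := by
        refine ⟨m * (w + 1), ?_⟩
        rw [hκ, ← mul_assoc] at hm
        convert hm using 1
        ring
      have := mul_mem (hCA' h1) (pow_mem hgi m)
      rwa [inv_pow, mul_inv_cancel_right₀ (pow_ne_zero _ hg0)] at this
    · rintro _ (rfl | rfl | ⟨i, rfl⟩)
      · refine ⟨1, ?_⟩
        rw [pow_one, one_mul, inv_mul_cancel_left₀ hg0, hκ]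
        exact pow_mem_sec v (ht 0) _
      · exact hCA U.2
      · exact hCA (hzC i)
  have hAO : away v hτ ≤ locR v.x := by
    rw [hA]
    refine Algebra.adjoin_le ?_
    rintro _ (rfl | rfl | ⟨i, rfl⟩)
    · exact inv_mem_locR v.x (hCO (hDC hgD)) hgx
    · exact hCO U.2
    · exact hCO (hzC i)
  have hgiA : g⁻¹ ∈ away v hτ := hA ▸ hgi
  refine ⟨{ R := sec v
            one_mem := one_mem_sec v
            mul_mem := mul_mem_sec v
            k := j * v.k₀
            k' := 1 + d * (j * v.k₀)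
            k_pos := hk
            k'_pos := hk'
            a := 1 + (j * v.k₀ - 1) * d
            b := j * v.k₀ - 1
            bez := ?_
            t := t
            t_mem := ht
            fin := fin
            N' := N'
            t' := t'
            t'_mem := ht'
            fin' := fin'
            t0_ne := h0
            t'0_ne := h0'
            indep := hind
            U := U
            U_mem := U.2
            c := c₀ + 1
            c_pos := Nat.succ_pos _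
            τ := g * t 0 ^ (w + 1)
            τ_mem := hτ
            τ_ne := mul_ne_zero hg0 (pow_ne_zero _ h0)
            A := away v hτ
            mem_A := fun f => Iff.rfl
            frac := fun f => ?_
            g := g
            g_mem := hgD
            g_ne := hg0
            A_eq := hA
            sep := ⟨g₀ * (g₀ * σ) * g⁻¹, mul_mem (hCA (mul_mem g₀.2 (mul_mem g₀.2 hσC))) hgiA, ?_⟩
            unit := ?_
            unit' := ?_
            x := evHom v.x _ hAO }, fun l f => mem_sec v, fun z hz => ⟨fun a ha => ?_,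
            fun a ha => ?_, ?_⟩⟩
  · obtain ⟨k, hk⟩ : ∃ k, j * v.k₀ = k + 1 := ⟨j * v.k₀ - 1, by omega⟩
    rw [hk, Nat.add_sub_cancel]
    ring
  · obtain ⟨a, ha, b, hb, rfl⟩ := hfracC f
    exact ⟨a, hCA ha, b, hCA hb, rfl⟩
  · rw [← hqe, hg]
    field_simp
  · rw [hw.1, mul_div_assoc, div_self (pow_ne_zero _ h0), mul_one]
    exact hCA (hDC hgD)
  · have h1 : σ⁻¹ ∈ away v hτ := by
      have := mul_mem (hCA (mul_mem (mul_mem g₀.2 g₀.2) q.2)) hgiA
      convert this using 1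
      rw [hg]
      field_simp
    have := mul_mem (hCA (hDC hgD)) (pow_mem h1 (c₀ + 1))
    convert this using 1
    rw [hσ, inv_div, div_pow, ← pow_mul, ← pow_mul, ← hw.1, mul_comm (j * v.k₀) (c₀ + 1),
      mul_comm (1 + d * (j * v.k₀)) (c₀ + 1), mul_div_assoc]
  · exact (thr_mem v hz (hAO ha)).1
  · exact (thr_mem v hz (hAO a.2)).2 ha
  · have h1 := (thr_mem v hz hρ).2 ht0
    rw [ord_div v z h0 (pow_ne_zero _ hu), ord_pow v z hu] at h1
    have h2 := hz.1
    simp only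
    push_cast
    linear_combination h1 + j * h2

end Crest.Agent.R271
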